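import Mathlib

/-!
Alternating sum of traces of a chain endomorphism of a bounded exact complex of finite
dimensional rational vector spaces vanishes.
-/

namespace Vale.Agent.Lib.P240

lemma exists_gen_inverse {A B : Type*} [AddCommGroup A] [Module ℚ A] [AddCommGroup B] [Module ℚ B]
    (f : A →ₗ[ℚ] B) : ∃ s : B →ₗ[ℚ] A, ∀ x, f (s (f x)) = f x := by
  obtain ⟨g, hg⟩ := LinearMap.exists_rightInverse_of_surjective f.rangeRestrict
    (LinearMap.range_rangeRestrict f)
  obtain ⟨π, hπ⟩ := LinearMap.exists_leftInverse_of_injective (LinearMap.range f).subtype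
    (LinearMap.ker_eq_bot.mpr (Submodule.subtype_injective _))
  refine ⟨g ∘ₗ π, fun x => ?_⟩
  have h1 : π (f x) = f.rangeRestrict x := by
    have := LinearMap.congr_fun hπ (f.rangeRestrict x)
    simpa using this
  have h2 : f.rangeRestrict (g (f.rangeRestrict x)) = f.rangeRestrict x :=
    LinearMap.congr_fun hg (f.rangeRestrict x)
  have h3 := congrArg Subtype.val h2
  simp only [LinearMap.codRestrict_apply, LinearMap.rangeRestrict] at h3
  simp only [LinearMap.comp_apply, h1]
  simpa [LinearMap.rangeRestrict] using h3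

section Hopf

variable {V : ℕ → Type*} [∀ k, AddCommGroup (V k)] [∀ k, Module ℚ (V k)]
  [∀ k, FiniteDimensional ℚ (V k)]

theorem alt_trace_eq_zero (d : ∀ k, V (k + 1) →ₗ[ℚ] V k) (φ : ∀ k, V k →ₗ[ℚ] V k)
    (hφ : ∀ k x, φ k (d k x) = d k (φ (k + 1) x))
    (h0 : ∀ x : V 0, ∃ y, d 0 y = x)
    (hdd : ∀ k x, d k (d (k + 1) x) = 0)
    (hex : ∀ k x, d k x = 0 → ∃ y, d (k + 1) y = x)
    (n : ℕ) (hn : Subsingleton (V n)) :
    ∑ k ∈ Finset.range n, (-1 : ℚ) ^ k * LinearMap.trace ℚ (V k) (φ k) = 0 := by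
  classical
  choose s hs using fun k => exists_gen_inverse (d k)
  let a : ℕ → ℚ := fun k => LinearMap.trace ℚ (V k) (φ k ∘ₗ d k ∘ₗ s k)
  have ht0 : LinearMap.trace ℚ (V 0) (φ 0) = a 0 := by
    have : d 0 ∘ₗ s 0 = LinearMap.id := by
      ext x
      obtain ⟨y, rfl⟩ := h0 x
      simpa using hs 0 y
    simp [a, this]
  have ht : ∀ k, LinearMap.trace ℚ (V (k + 1)) (φ (k + 1)) = a (k + 1) + a k := by
    intro k
    set D := d (k + 1) ∘ₗ s (k + 1) with hD
    set A : V (k + 1) →ₗ[ℚ] V (k + 1) := LinearMap.id - D with hA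
    set B : V (k + 1) →ₗ[ℚ] V (k + 1) := s k ∘ₗ d k with hB
    have hsplit : φ (k + 1) = φ (k + 1) ∘ₗ D + φ (k + 1) ∘ₗ A := by
      ext x
      simp [hA]
    have hBA : B ∘ₗ A = B := by
      ext x
      simp [hB, hA, hD, hdd]
    have hAφB : A ∘ₗ φ (k + 1) ∘ₗ B = A ∘ₗ φ (k + 1) := by
      ext x
      have h1 : d k (x - B x) = 0 := by
        simp [hB, hs k x]
      have h2 : d k (φ (k + 1) (x - B x)) = 0 := by
        rw [← hφ, h1, map_zero]
      obtain ⟨w, hw⟩ := hex k _ h2
      have h3 : A (φ (k + 1) (x - B x)) = 0 := by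
        rw [← hw]
        simp [hA, hD, hs (k + 1) w]
      simp only [map_sub] at h3
      have h4 := sub_eq_zero.mp h3
      simpa using h4.symm
    have key : LinearMap.trace ℚ (V (k + 1)) (φ (k + 1) ∘ₗ A) = a k := by
      calc LinearMap.trace ℚ (V (k + 1)) (φ (k + 1) ∘ₗ A)
          = LinearMap.trace ℚ (V (k + 1)) (A ∘ₗ φ (k + 1)) := by
            exact LinearMap.trace_comp_comm' _ _
        _ = LinearMap.trace ℚ (V (k + 1)) ((A ∘ₗ φ (k + 1)) ∘ₗ B) := by
            rw [LinearMap.comp_assoc, hAφB]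
        _ = LinearMap.trace ℚ (V (k + 1)) (B ∘ₗ (A ∘ₗ φ (k + 1))) := by
            exact LinearMap.trace_comp_comm' _ _
        _ = LinearMap.trace ℚ (V (k + 1)) (B ∘ₗ φ (k + 1)) := by
            rw [← LinearMap.comp_assoc, hBA]
        _ = LinearMap.trace ℚ (V (k + 1)) (s k ∘ₗ (d k ∘ₗ φ (k + 1))) := by
            rw [hB, LinearMap.comp_assoc]
        _ = LinearMap.trace ℚ (V k) ((d k ∘ₗ φ (k + 1)) ∘ₗ s k) := by
            exact LinearMap.trace_comp_comm' _ _
        _ = a k := by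
            have : d k ∘ₗ φ (k + 1) = φ k ∘ₗ d k := by
              ext x
              simp [hφ]
            rw [this, LinearMap.comp_assoc]
    calc LinearMap.trace ℚ (V (k + 1)) (φ (k + 1))
        = LinearMap.trace ℚ (V (k + 1)) (φ (k + 1) ∘ₗ D + φ (k + 1) ∘ₗ A) := by
          rw [← hsplit]
      _ = a (k + 1) + a k := by
          rw [map_add, key]
  have hS : ∀ m, ∑ k ∈ Finset.range (m + 1), (-1 : ℚ) ^ k * LinearMap.trace ℚ (V k) (φ k)
      = (-1) ^ m * a m := by
    intro m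
    induction m with
    | zero => simp [ht0]
    | succ m ih =>
      rw [Finset.sum_range_succ, ih, ht m, pow_succ]
      ring
  cases n with
  | zero => simp
  | succ m =>
    rw [hS m]
    have hz : d m = 0 := by
      ext x
      have : x = 0 := Subsingleton.elim _ _
      simp [this]
    simp [a, hz]

end Hopf

end Vale.Agent.Lib.P240
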