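import Vale.Agent.Lib.P240.Defs
import Vale.Agent.Lib.P240.Hopf

/-!
The conjugation action on chains, the chain map property, `∂ ∘ ∂ = 0`, and the fixed-point
divisibility criterion.
-/

namespace Vale.Agent.Lib.P240

open scoped Classical

variable {G : Type*} [Group G]

/-- Conjugate subgroup `g E g⁻¹`. -/
def conj (g : G) (E : Subgroup G) : Subgroup G := E.map (MulAut.conj g).toMonoidHom

lemma mem_conj {g x : G} {E : Subgroup G} : x ∈ conj g E ↔ g⁻¹ * x * g ∈ E := by
  constructor
  · rintro ⟨y, hy, rfl⟩
    simpa [mul_assoc] using hy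
  · intro h
    exact ⟨_, h, by simp [mul_assoc]⟩

lemma conj_one (E : Subgroup G) : conj 1 E = E := by
  ext x
  simp [mem_conj]

lemma conj_mul (g h : G) (E : Subgroup G) : conj (g * h) E = conj g (conj h E) := by
  ext x
  simp [mem_conj, mul_assoc]

lemma conj_conj_inv (g : G) (E : Subgroup G) : conj g (conj g⁻¹ E) = E := by
  rw [← conj_mul]; simp [conj_one]

lemma conj_inv_conj (g : G) (E : Subgroup G) : conj g⁻¹ (conj g E) = E := by
  rw [← conj_mul]; simp [conj_one]

lemma conj_le_conj {g : G} {E F : Subgroup G} : conj g E ≤ conj g F ↔ E ≤ F := by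
  constructor
  · intro h x hx
    have : g * x * g⁻¹ ∈ conj g F := h (by simp [mem_conj, mul_assoc, hx])
    simpa [mem_conj, mul_assoc] using this
  · intro h x hx
    rw [mem_conj] at hx ⊢
    exact h hx

lemma conj_lt_conj {g : G} {E F : Subgroup G} : conj g E < conj g F ↔ E < F := by
  simp [lt_iff_le_not_ge, conj_le_conj]

/-- Conjugation as a permutation of the subgroups. -/
def conjEquiv (g : G) : Subgroup G ≃ Subgroup G where
  toFun := conj g
  invFun := conj g⁻¹
  left_inv := conj_inv_conj g
  right_inv := conj_conj_inv g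

lemma isElemAb_conj {p : ℕ} (g : G) {E : Subgroup G} (h : IsElemAb p E) :
    IsElemAb p (conj g E) := by
  obtain ⟨h1, h2, h3⟩ := h
  refine ⟨?_, ?_, ?_⟩
  · intro hb
    apply h1
    ext x
    constructor
    · intro hx
      have : g * x * g⁻¹ ∈ conj g E := by simp [mem_conj, mul_assoc, hx]
      rw [hb, Subgroup.mem_bot] at this
      have h5 : g * x = g := by
        calc g * x = (g * x * g⁻¹) * g := by group
          _ = g := by rw [this, one_mul]
      simpa using h5
    · intro hx
      rw [Subgroup.mem_bot] at hx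
      rw [hx]
      exact E.one_mem
  · intro x hx
    rw [mem_conj] at hx
    have := h2 _ hx
    have h6 : (g⁻¹ * x * g) ^ p = g⁻¹ * x ^ p * g := by
      have := conj_pow (a := g⁻¹) (b := x) (i := p)
      simpa using this
    rw [h6] at this
    have h7 : x ^ p = g * (g⁻¹ * x ^ p * g) * g⁻¹ := by group
    rw [h7, this]
    group
  · intro x hx y hy
    rw [mem_conj] at hx hy
    have := h3 _ hx _ hy
    have h8 : x * y = g * ((g⁻¹ * x * g) * (g⁻¹ * y * g)) * g⁻¹ := by group
    have h9 : y * x = g * ((g⁻¹ * y * g) * (g⁻¹ * x * g)) * g⁻¹ := by group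
    rw [h8, h9, this]

/-- Conjugation of a finite set of subgroups. -/
noncomputable def cimg (g : G) (c : Finset (Subgroup G)) : Finset (Subgroup G) := c.image (conj g)

lemma cimg_one (c : Finset (Subgroup G)) : cimg 1 c = c := by
  ext E
  simp [cimg, conj_one]

lemma cimg_mul (g h : G) (c : Finset (Subgroup G)) : cimg (g * h) c = cimg g (cimg h c) := by
  ext E
  simp [cimg, conj_mul]

lemma mem_cimg {g : G} {c : Finset (Subgroup G)} {E : Subgroup G} :
    E ∈ cimg g c ↔ conj g⁻¹ E ∈ c := by
  simp only [cimg, Finset.mem_image]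
  constructor
  · rintro ⟨F, hF, rfl⟩
    rwa [conj_inv_conj]
  · intro h
    exact ⟨_, h, conj_conj_inv g E⟩

lemma card_cimg (g : G) (c : Finset (Subgroup G)) : (cimg g c).card = c.card :=
  Finset.card_image_of_injective _ (conjEquiv g).injective

lemma cimg_insert (g : G) (E : Subgroup G) (b : Finset (Subgroup G)) :
    cimg g (insert E b) = insert (conj g E) (cimg g b) := by
  simp [cimg, Finset.image_insert]

lemma isChainOf_cimg {p : ℕ} (g : G) {c : Finset (Subgroup G)} (h : IsChainOf p c) :
    IsChainOf p (cimg g c) := by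
  refine ⟨?_, ?_⟩
  · intro E hE
    rw [mem_cimg] at hE
    have := isElemAb_conj g (h.1 _ hE)
    rwa [conj_conj_inv] at this
  · intro E hE F hF
    rw [mem_cimg] at hE hF
    rcases h.2 _ hE _ hF with h1 | h1
    · left; exact conj_le_conj.mp h1
    · right; exact conj_le_conj.mp h1

section Boundary

variable [Finite G]

lemma boundary_apply (f : Finset (Subgroup G) → ℚ) (b : Finset (Subgroup G)) :
    letI := Fintype.ofFinite (Subgroup G)
    boundary f b = ∑ E ∈ Finset.univ \ b, (-1 : ℚ) ^ (b.filter (· < E)).card * f (insert E b) := rfl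

lemma isChainOf_mono {p : ℕ} {b c : Finset (Subgroup G)} (h : b ⊆ c) (hc : IsChainOf p c) :
    IsChainOf p b :=
  ⟨fun E hE => hc.1 E (h hE), fun E hE F hF => hc.2 E (h hE) F (h hF)⟩

/-- The boundary lowers the degree. -/
lemma boundary_mem {p k : ℕ} {f : Finset (Subgroup G) → ℚ} (hf : f ∈ chainSpace p G (k + 1)) :
    boundary f ∈ chainSpace p G k := by
  let := Fintype.ofFinite (Subgroup G)
  intro b hb
  rw [boundary_apply] at hb
  obtain ⟨E, hE, hne⟩ := Finset.exists_ne_zero_of_sum_ne_zero hb
  have hfne : f (insert E b) ≠ 0 := fun h => hne (by simp [h])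
  obtain ⟨hc, hcard⟩ := hf _ hfne
  have hEb : E ∉ b := (Finset.mem_sdiff.mp hE).2
  refine ⟨isChainOf_mono (Finset.subset_insert _ _) hc, ?_⟩
  rw [Finset.card_insert_of_notMem hEb] at hcard
  omega

lemma boundary_add (f g : Finset (Subgroup G) → ℚ) : boundary (f + g) = boundary f + boundary g := by
  letI := Fintype.ofFinite (Subgroup G)
  ext b
  simp only [boundary_apply, Pi.add_apply, mul_add, Finset.sum_add_distrib]

lemma boundary_smul (r : ℚ) (f : Finset (Subgroup G) → ℚ) : boundary (r • f) = r • boundary f := by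
  letI := Fintype.ofFinite (Subgroup G)
  ext b
  simp only [boundary_apply, Pi.smul_apply, smul_eq_mul, Finset.mul_sum]
  refine Finset.sum_congr rfl fun E _ => ?_
  ring

/-- `∂ ∘ ∂ = 0` on chains. -/
lemma boundary_boundary {p k : ℕ} {f : Finset (Subgroup G) → ℚ} (hf : f ∈ chainSpace p G k) :
    boundary (boundary f) = 0 := by
  letI := Fintype.ofFinite (Subgroup G)
  ext b
  simp only [Pi.zero_apply]
  rw [boundary_apply]
  simp only [boundary_apply]
  let T : Subgroup G → Subgroup G → ℚ := fun E F =>
    if E ∉ b ∧ F ∉ b ∧ F ≠ E then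
      (-1 : ℚ) ^ (b.filter (· < E)).card * ((-1 : ℚ) ^ ((insert E b).filter (· < F)).card *
        f (insert F (insert E b)))
    else 0
  have hanti : ∀ E F, T E F = - T F E := by
    intro E F
    simp only [T]
    by_cases hc : E ∉ b ∧ F ∉ b ∧ F ≠ E
    · have hc' : F ∉ b ∧ E ∉ b ∧ E ≠ F := ⟨hc.2.1, hc.1, fun h => hc.2.2 h.symm⟩
      rw [if_pos hc, if_pos hc', Finset.insert_comm F E b]
      by_cases hfz : f (insert E (insert F b)) = 0
      · simp [hfz]
      obtain ⟨hch, -⟩ := hf _ hfz
      have hcomp := hch.2 E (by simp) F (by simp)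
      have hEF : E < F ∨ F < E := by
        rcases hcomp with h | h
        · left; exact lt_of_le_of_ne h (fun h' => hc.2.2 h'.symm)
        · right; exact lt_of_le_of_ne h (fun h' => hc.2.2 h')
      have hins : ∀ (X Y : Subgroup G), X ∉ b → X < Y →
          ((insert X b).filter (· < Y)).card = (b.filter (· < Y)).card + 1 := by
        intro X Y hX hXY
        rw [Finset.filter_insert, if_pos hXY, Finset.card_insert_of_notMem]
        simp [hX]
      have hins' : ∀ (X Y : Subgroup G), Y < X →
          ((insert X b).filter (· < Y)).card = (b.filter (· < Y)).card := by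
        intro X Y hXY
        rw [Finset.filter_insert, if_neg (not_lt_of_gt hXY)]
      rcases hEF with h | h
      · rw [hins E F hc.1 h, hins' F E h, pow_succ]
        ring
      · rw [hins' E F h, hins F E hc.2.1 h, pow_succ]
        ring
    · have hc' : ¬ (F ∉ b ∧ E ∉ b ∧ E ≠ F) := fun h => hc ⟨h.2.1, h.1, fun h' => h.2.2 h'.symm⟩
      rw [if_neg hc, if_neg hc']
      simp
  have hsum : ∑ E ∈ Finset.univ \ b, (-1 : ℚ) ^ (b.filter (· < E)).card *
      ∑ F ∈ Finset.univ \ insert E b, (-1 : ℚ) ^ ((insert E b).filter (· < F)).card *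
        f (insert F (insert E b)) = ∑ E, ∑ F, T E F := by
    have h1 : ∀ E, ∑ F, T E F = if E ∉ b then (-1 : ℚ) ^ (b.filter (· < E)).card *
        ∑ F ∈ Finset.univ \ insert E b, (-1 : ℚ) ^ ((insert E b).filter (· < F)).card *
        f (insert F (insert E b)) else 0 := by
      intro E
      by_cases hE : E ∉ b
      · rw [if_pos hE, Finset.mul_sum]
        have hsub : Finset.univ \ insert E b ⊆ (Finset.univ : Finset (Subgroup G)) :=
          Finset.subset_univ _
        rw [← Finset.sum_subset hsub]
        · refine Finset.sum_congr rfl fun F hF => ?_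
          have hF' : F ∉ insert E b := (Finset.mem_sdiff.mp hF).2
          simp only [Finset.mem_insert, not_or] at hF'
          simp only [T]
          rw [if_pos ⟨hE, hF'.2, hF'.1⟩]
        · intro F _ hF
          simp only [T]
          rw [if_neg]
          rintro ⟨-, h2, h3⟩
          apply hF
          simp [h2, h3]
      · rw [if_neg hE]
        refine Finset.sum_eq_zero fun F _ => ?_
        simp only [T]
        rw [if_neg]
        exact fun h => hE h.1
    rw [Finset.sum_congr rfl fun E _ => h1 E]
    have hsub : Finset.univ \ b ⊆ (Finset.univ : Finset (Subgroup G)) := Finset.subset_univ _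
    rw [← Finset.sum_subset hsub]
    · refine Finset.sum_congr rfl fun E hE => ?_
      rw [if_pos (Finset.mem_sdiff.mp hE).2]
    · intro E _ hE
      rw [if_neg]
      intro h
      exact hE (by simp [h])
  rw [hsum]
  have hS : ∑ E, ∑ F, T E F = - ∑ E, ∑ F, T E F := by
    calc ∑ E, ∑ F, T E F = ∑ F, ∑ E, T E F := Finset.sum_comm
      _ = ∑ F, ∑ E, - T F E := by
          refine Finset.sum_congr rfl fun F _ => Finset.sum_congr rfl fun E _ => hanti E F
      _ = - ∑ E, ∑ F, T E F := by
          simp only [Finset.sum_neg_distrib]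
  linarith

end Boundary

end Vale.Agent.Lib.P240
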