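import Vale.Agent.Lib.P240.Main

/-!
Consequences of the main criterion: commuting pairs of a `q`-subgroup and an element.
-/

namespace Vale.Agent.Lib.P240

open scoped Classical

variable {G : Type*} [Group G] [Finite G]

/-- If a `q`-subgroup `Q` commutes with `g`, and `Q` and `g` normalize no common member of
`A_p(G)`, then the reduced rational homology of `A_p(G)` does not vanish. -/
theorem homology_ne_of_commuting_pgroup (p q : ℕ) [Fact q.Prime] (g : G) (Q : Subgroup G)
    (hQ : IsPGroup q Q) (hc : Q ≤ Subgroup.centralizer ({g} : Set G))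
    (hfree : ∀ E : Subgroup G, IsElemAb p E → g ∈ Subgroup.normalizer (E : Set G) →
      ¬ Q ≤ Subgroup.normalizer (E : Set G)) :
    ¬ ReducedHomologyVanishes p G := by
  have hq : q ≠ 1 := (Fact.out : q.Prime).ne_one
  apply homology_ne_of_dvd p g q hq
  intro E hE hgE
  by_contra hnd
  set C := Subgroup.centralizer ({g} : Set G) with hC
  set H := (Subgroup.normalizer (E : Set G)).subgroupOf C with hH
  have hindex : ¬ q ∣ Nat.card (C ⧸ H) := by
    have : Nat.card (C ⧸ H) = (Subgroup.normalizer (E : Set G)).relIndex C := rfl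
    rwa [this]
  let Q' : Subgroup C := Q.subgroupOf C
  have hQ' : IsPGroup q Q' := hQ.comap_of_injective _ (Subgroup.subtype_injective C) |>.to_le
    (le_refl _)
  obtain ⟨x, hx⟩ := hQ'.nonempty_fixed_point_of_prime_not_dvd_card (C ⧸ H) hindex
  induction x using QuotientGroup.induction_on with
  | H x =>
    have hfix : ∀ u : Q', (u : C) • ((x : C) : C ⧸ H) = ((x : C) : C ⧸ H) := fun u => hx u
    apply hfree (conj (x : G) E) (isElemAb_conj _ hE)
    · rw [Subgroup.mem_normalizer_iff_map_conj_eq]
      have hxg : (x : G) * g = g * (x : G) := Subgroup.mem_centralizer_singleton_iff.mp x.2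
      have h1 : conj g (conj (x : G) E) = conj (x : G) (conj g E) := by
        rw [← conj_mul, ← conj_mul, hxg]
      have h2 : conj g E = E := by
        have := Subgroup.mem_normalizer_iff_map_conj_eq.mp hgE
        exact this
      show conj g (conj (x : G) E) = conj (x : G) E
      rw [h1, h2]
    · intro u hu
      rw [Subgroup.mem_normalizer_iff_map_conj_eq]
      show conj u (conj (x : G) E) = conj (x : G) E
      have huc : u ∈ C := hc hu
      let uQ : Q' := ⟨⟨u, huc⟩, by simpa [Q', Subgroup.mem_subgroupOf] using hu⟩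
      have hfx : ((x : C) : C ⧸ H) = (((⟨u, huc⟩ : C) * (x : C) : C) : C ⧸ H) := (hfix uQ).symm
      have hmem : (x : C)⁻¹ * ((⟨u, huc⟩ : C) * (x : C)) ∈ H := QuotientGroup.eq.mp hfx
      have hmem2 : (x : G)⁻¹ * (u * (x : G)) ∈ Subgroup.normalizer (E : Set G) := by
        rw [hH, Subgroup.mem_subgroupOf] at hmem
        simpa using hmem
      have h3 : conj ((x : G)⁻¹ * (u * (x : G))) E = E :=
        Subgroup.mem_normalizer_iff_map_conj_eq.mp hmem2
      calc conj u (conj (x : G) E)
          = conj ((x : G) * ((x : G)⁻¹ * (u * (x : G)))) E := by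
            rw [← conj_mul]; congr 1; group
        _ = conj (x : G) (conj ((x : G)⁻¹ * (u * (x : G))) E) := conj_mul _ _ _
        _ = conj (x : G) E := by rw [h3]

/-- A `p`-torsion-free centralizer of a normal `q`-subgroup forces nonzero reduced homology. -/
theorem homology_ne_of_normal_pgroup (p q : ℕ) [Fact p.Prime] [Fact q.Prime] (hpq : p ≠ q)
    (R : Subgroup G) [hRn : R.Normal] (hR : IsPGroup q R)
    (hcen : ∀ x : G, x ^ p = 1 → (∀ r ∈ R, x * r = r * x) → x = 1) :
    ¬ ReducedHomologyVanishes p G := by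
  apply homology_ne_of_commuting_pgroup p q 1 R hR
  · intro r _
    rw [Subgroup.mem_centralizer_singleton_iff]
    simp
  · intro E hE _ hle
    obtain ⟨h1, h2, -⟩ := hE
    apply h1
    rw [eq_bot_iff]
    intro x hx
    rw [Subgroup.mem_bot]
    apply hcen x (h2 x hx)
    intro r hr
    have hcomm : r⁻¹ * x⁻¹ * r * x = 1 := by
      have hx1 : r⁻¹ * x⁻¹ * r ∈ E := by
        have hr' : r⁻¹ ∈ Subgroup.normalizer (E : Set G) := (Subgroup.normalizer _).inv_mem (hle hr)
        have := (Subgroup.mem_normalizer_iff.mp hr' x⁻¹).mp (E.inv_mem hx)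
        simpa using this
      have hm1 : r⁻¹ * x⁻¹ * r * x ∈ E := E.mul_mem hx1 hx
      have hm2 : r⁻¹ * x⁻¹ * r * x ∈ R := by
        have h3 : x⁻¹ * r * x ∈ R := by
          have := hRn.conj_mem r hr x⁻¹
          simpa using this
        have : r⁻¹ * x⁻¹ * r * x = r⁻¹ * (x⁻¹ * r * x) := by group
        rw [this]
        exact R.mul_mem (R.inv_mem hr) h3
      have hy := h2 _ hm1
      obtain ⟨k, hk⟩ := (IsPGroup.iff_orderOf.mp hR) ⟨_, hm2⟩
      have hk' : orderOf (r⁻¹ * x⁻¹ * r * x) = q ^ k := by
        rw [← hk]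
        exact (Subgroup.orderOf_mk _ _).symm
      have hdvd : q ^ k ∣ p := by
        rw [← hk']
        exact orderOf_dvd_of_pow_eq_one hy
      have hk0 : k = 0 := by
        by_contra hne
        have hq1 : q ∣ q ^ k := dvd_pow_self q hne
        have := hq1.trans hdvd
        exact hpq ((Nat.prime_dvd_prime_iff_eq (Fact.out) (Fact.out)).mp this).symm
      rw [hk0, pow_zero, orderOf_eq_one_iff] at hk'
      exact hk'
    have : x * r = r * x := by
      have h4 : (r⁻¹ * x⁻¹ * r * x) = (x * r)⁻¹ * (r * x) := by group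
      rw [h4] at hcomm
      exact (inv_mul_eq_one.mp hcomm)
    exact this

end Vale.Agent.Lib.P240
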