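import Vale.Agent.Lib.P240.DefsFree
import Vale.Agent.Lib.P240.FormB

/-!
Groups with a normal subgroup that is a product of simple groups carrying `p`-free subgroups.
-/

namespace Vale.Agent.Lib.P240

open scoped Classical

section Pi

variable {ι : Type*} [Fintype ι] {A : ι → Type*} [∀ i, Group (A i)]

/-- An automorphism of a product of simple groups fixing a nontrivial element of a factor
preserves that factor. -/
lemma apply_single_coord [∀ i, IsSimpleGroup (A i)] (β : MulAut (∀ i, A i)) (i : ι) (u : A i)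
    (hu : u ≠ 1) (hβ : β (Pi.mulSingle i u) = Pi.mulSingle i u) (a : A i) (j : ι) (hj : j ≠ i) :
    (β (Pi.mulSingle i a)) j = 1 := by
  let φ : A i →* A j := (Pi.evalMonoidHom A j).comp (β.toMonoidHom.comp (MonoidHom.mulSingle A i))
  have hker : φ.ker = ⊤ := by
    rcases IsSimpleGroup.eq_bot_or_eq_top_of_normal φ.ker inferInstance with h | h
    · exfalso
      apply hu
      have : u ∈ φ.ker := by
        rw [MonoidHom.mem_ker]
        show (β (Pi.mulSingle i u)) j = 1
        rw [hβ, Pi.mulSingle_eq_of_ne hj]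
      rw [h] at this
      simpa using this
    · exact h
  have : a ∈ φ.ker := by rw [hker]; trivial
  exact MonoidHom.mem_ker.mp this

lemma apply_single_eq [∀ i, IsSimpleGroup (A i)] (β : MulAut (∀ i, A i)) (i : ι) (u : A i)
    (hu : u ≠ 1) (hβ : β (Pi.mulSingle i u) = Pi.mulSingle i u) (a : A i) :
    β (Pi.mulSingle i a) = Pi.mulSingle i ((β (Pi.mulSingle i a)) i) := by
  ext j
  by_cases hj : j = i
  · subst hj
    simp
  · rw [apply_single_coord β i u hu hβ a j hj, Pi.mulSingle_eq_of_ne hj]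

/-- The automorphism of the factor `A i` induced by `β`. -/
noncomputable def factorAut [∀ i, IsSimpleGroup (A i)] (β : MulAut (∀ i, A i)) (i : ι) (u : A i)
    (hu : u ≠ 1) (hβ : β (Pi.mulSingle i u) = Pi.mulSingle i u) : MulAut (A i) where
  toFun a := (β (Pi.mulSingle i a)) i
  invFun a := (β⁻¹ (Pi.mulSingle i a)) i
  left_inv a := by
    have hinv : β⁻¹ (Pi.mulSingle i u) = Pi.mulSingle i u := by
      conv_lhs => rw [← hβ]
      exact MulAut.inv_apply_self _ β _
    have h1 := apply_single_eq β i u hu hβ a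
    show (β⁻¹ (Pi.mulSingle i ((β (Pi.mulSingle i a)) i))) i = a
    rw [← h1]
    simp
  right_inv a := by
    have hinv : β⁻¹ (Pi.mulSingle i u) = Pi.mulSingle i u := by
      conv_lhs => rw [← hβ]
      exact MulAut.inv_apply_self _ β _
    have h1 := apply_single_eq β⁻¹ i u hu hinv a
    show (β (Pi.mulSingle i ((β⁻¹ (Pi.mulSingle i a)) i))) i = a
    rw [← h1]
    simp
  map_mul' a b := by
    show (β (Pi.mulSingle i (a * b))) i = _
    rw [Pi.mulSingle_mul, map_mul]
    rfl

lemma factorAut_apply [∀ i, IsSimpleGroup (A i)] (β : MulAut (∀ i, A i)) (i : ι) (u : A i)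
    (hu : u ≠ 1) (hβ : β (Pi.mulSingle i u) = Pi.mulSingle i u) (a : A i) :
    factorAut β i u hu hβ a = (β (Pi.mulSingle i a)) i := rfl

lemma factorAut_pow [∀ i, IsSimpleGroup (A i)] (β : MulAut (∀ i, A i)) (i : ι) (u : A i)
    (hu : u ≠ 1) (hβ : β (Pi.mulSingle i u) = Pi.mulSingle i u) (n : ℕ) (a : A i) :
    ((factorAut β i u hu hβ) ^ n) a = ((β ^ n) (Pi.mulSingle i a)) i := by
  induction n generalizing a with
  | zero => simp
  | succ n ih =>
    rw [pow_succ, pow_succ, MulAut.mul_apply, MulAut.mul_apply, ih, factorAut_apply,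
      ← apply_single_eq β i u hu hβ a]

/-- An automorphism of order dividing `p` of a product of simple groups which fixes the `p`-free
subgroups of all the factors is trivial. -/
lemma aut_eq_one [∀ i, IsSimpleGroup (A i)] {p : ℕ} (U : ∀ i, Subgroup (A i))
    (hU0 : ∀ i, U i ≠ ⊥)
    (hfree : ∀ i, ∀ α : MulAut (A i), α ^ p = 1 → (∀ u ∈ U i, α u = u) → α = 1)
    (β : MulAut (∀ i, A i)) (hp : β ^ p = 1)
    (hfix : ∀ i, ∀ u ∈ U i, β (Pi.mulSingle i u) = Pi.mulSingle i u) : β = 1 := by
  have hsingle : ∀ i (a : A i), β (Pi.mulSingle i a) = Pi.mulSingle i a := by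
    intro i a
    obtain ⟨⟨u, huU⟩, hu⟩ := (Subgroup.ne_bot_iff_exists_ne_one.mp (hU0 i))
    have hu' : (u : A i) ≠ 1 := by simpa using hu
    have hβ := hfix i u huU
    have hα := hfree i (factorAut β i u hu' hβ) (by
        ext b
        rw [factorAut_pow, hp]
        simp)
      (by
        intro v hv
        rw [factorAut_apply, hfix i v hv]
        simp)
    have h1 := apply_single_eq β i u hu' hβ a
    rw [h1]
    have h2 : factorAut β i u hu' hβ a = a := by rw [hα]; rfl
    rw [factorAut_apply] at h2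
    rw [h2]
  ext v j
  have hs : ∀ s : Finset ι, β (fun j => if j ∈ s then v j else 1) = fun j => if j ∈ s then v j else 1 := by
    intro s
    induction s using Finset.induction_on with
    | empty =>
      have : (fun j => if j ∈ (∅ : Finset ι) then v j else 1) = (1 : ∀ i, A i) := by
        ext j
        simp
      rw [this, map_one]
    | insert i s hi ih =>
      have : (fun j => if j ∈ insert i s then v j else 1) =
          Pi.mulSingle i (v i) * (fun j => if j ∈ s then v j else 1) := by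
        ext j
        by_cases hj : j = i
        · subst hj
          simp [hi]
        · simp [hj, Pi.mulSingle_eq_of_ne hj]
      rw [this, map_mul, hsingle, ih]
  have h1 := hs Finset.univ
  simp only [Finset.mem_univ, if_true] at h1
  show (β v) j = v j
  exact congrFun h1 j

end Pi

section Main

variable {G : Type*} [Group G] [Finite G]

lemma normalizer_conj_mem {E : Subgroup G} {u x : G}
    (hu : u ∈ Subgroup.normalizer (E : Set G)) (hx : x ∈ E) : u * x * u⁻¹ ∈ E :=
  (Subgroup.mem_normalizer_iff.mp hu x).mp hx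

/-- The key: a member of `A_p(G)` normalized by the `p`-free subgroups of the factors and by the
normal `q`-subgroup lies in the centralizer. -/
lemma elemAb_centralizes {p q : ℕ} [Fact p.Prime] [Fact q.Prime] (hpq : p ≠ q)
    {ι : Type*} [Fintype ι] {A : ι → Type*} [∀ i, Group (A i)] [∀ i, IsSimpleGroup (A i)]
    (U : ∀ i, Subgroup (A i)) (hU0 : ∀ i, U i ≠ ⊥) (hU : ∀ i, FreeSubgroup p (A i) (U i))
    (K : Subgroup G) [hK : K.Normal] (e : K ≃* ∀ i, A i)
    (R : Subgroup G) [hRn : R.Normal] (hR : IsPGroup q R)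
    (E : Subgroup G) (hE : IsElemAb p E)
    (hRE : R ≤ Subgroup.normalizer (E : Set G))
    (hUE : ∀ i, ∀ u ∈ U i, ((e.symm (Pi.mulSingle i u) : K) : G) ∈ Subgroup.normalizer (E : Set G))
    (x : G) (hx : x ∈ E) :
    (∀ r ∈ R, x * r = r * x) ∧ ∀ k ∈ K, x * k = k * x := by
  obtain ⟨hE0, hEexp, hEcomm⟩ := hE
  -- the intersection with `K` is trivial
  have hEK : ∀ y : K, (y : G) ∈ E → y = 1 := by
    intro y hy
    apply e.injective
    rw [map_one]
    ext j
    simp only [Pi.one_apply]
    let π : K →* A j := (Pi.evalMonoidHom A j).comp e.toMonoidHom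
    let Ej : Subgroup (A j) := (E.subgroupOf K).map π
    by_contra hne
    have hEj0 : Ej ≠ ⊥ := by
      intro hb
      apply hne
      have : π y ∈ Ej := ⟨y, by simpa [Subgroup.mem_subgroupOf] using hy, rfl⟩
      rw [hb] at this
      simpa [π] using this
    have hEjelem : IsElemAb p Ej := by
      refine ⟨hEj0, ?_, ?_⟩
      · rintro a ⟨z, hz, rfl⟩
        rw [← map_pow]
        have h1 : (z : G) ^ p = 1 := hEexp _ (by simpa [Subgroup.mem_subgroupOf] using hz)
        have h2 : z ^ p = 1 := Subtype.ext (by simpa using h1)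
        rw [h2, map_one]
      · rintro a ⟨z, hz, rfl⟩ b ⟨w, hw, rfl⟩
        rw [← map_mul, ← map_mul]
        have h1 := hEcomm _ (by simpa [Subgroup.mem_subgroupOf] using hz) _
          (by simpa [Subgroup.mem_subgroupOf] using hw)
        have h2 : z * w = w * z := Subtype.ext (by simpa using h1)
        rw [h2]
    apply (hU j).1 Ej hEjelem
    -- a step
    have hstep : ∀ u ∈ U j, ∀ a ∈ Ej, u * a * u⁻¹ ∈ Ej := by
      rintro u hu a ⟨z, hz, rfl⟩
      let gu : K := e.symm (Pi.mulSingle j u)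
      have hz' : (z : G) ∈ E := by simpa [Subgroup.mem_subgroupOf] using hz
      have h1 : ((gu * z * gu⁻¹ : K) : G) ∈ E := by
        have := normalizer_conj_mem (hUE j u hu) hz'
        simpa [gu] using this
      refine ⟨gu * z * gu⁻¹, by simpa [Subgroup.mem_subgroupOf] using h1, ?_⟩
      have hgu : e gu = Pi.mulSingle j u := by simp [gu]
      simp only [π, MonoidHom.comp_apply, MulEquiv.toMonoidHom_eq_coe, MonoidHom.coe_coe, map_mul,
        map_inv, hgu, Pi.evalMonoidHom_apply, Pi.mul_apply, Pi.inv_apply, Pi.mulSingle_eq_same]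
    intro u hu
    rw [Subgroup.mem_normalizer_iff]
    intro a
    constructor
    · exact hstep u hu a
    · intro ha
      have := hstep u⁻¹ ((U j).inv_mem hu) _ ha
      simpa [mul_assoc] using this
  -- `x` commutes with the `g_u`
  have hcomm : ∀ i, ∀ u ∈ U i, x * ((e.symm (Pi.mulSingle i u) : K) : G) =
      ((e.symm (Pi.mulSingle i u) : K) : G) * x := by
    intro i u hu
    set gu : K := e.symm (Pi.mulSingle i u) with hgu
    have h1 : (gu : G) * x * (gu : G)⁻¹ ∈ E := normalizer_conj_mem (hUE i u hu) hx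
    have h2 : (gu : G) * x * (gu : G)⁻¹ * x⁻¹ ∈ E := E.mul_mem h1 (E.inv_mem hx)
    have h3 : (gu : G) * (x * (gu : G)⁻¹ * x⁻¹) ∈ K :=
      K.mul_mem gu.2 (hK.conj_mem _ (K.inv_mem gu.2) x)
    have h4 := hEK ⟨_, h3⟩ (by simpa [mul_assoc] using h2)
    have h5 : (gu : G) * (x * (gu : G)⁻¹ * x⁻¹) = 1 := congrArg Subtype.val h4
    have h6 : (gu : G) * x * (gu : G)⁻¹ * x⁻¹ = 1 := by simpa [mul_assoc] using h5
    have h7 : (gu : G) * x = x * (gu : G) := by
      calc (gu : G) * x = ((gu : G) * x * (gu : G)⁻¹ * x⁻¹) * (x * (gu : G)) := by group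
        _ = x * (gu : G) := by rw [h6, one_mul]
    exact h7.symm
  constructor
  · -- commuting with `R`
    intro r hr
    have h1 : r * x * r⁻¹ ∈ E := normalizer_conj_mem (hRE hr) hx
    have hm1 : r * x * r⁻¹ * x⁻¹ ∈ E := E.mul_mem h1 (E.inv_mem hx)
    have hm2 : r * x * r⁻¹ * x⁻¹ ∈ R := by
      have h3 : x * r⁻¹ * x⁻¹ ∈ R := hRn.conj_mem _ (R.inv_mem hr) x
      have : r * x * r⁻¹ * x⁻¹ = r * (x * r⁻¹ * x⁻¹) := by group
      rw [this]
      exact R.mul_mem hr h3
    have hy := hEexp _ hm1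
    obtain ⟨k, hk⟩ := (IsPGroup.iff_orderOf.mp hR) ⟨_, hm2⟩
    have hk' : orderOf (r * x * r⁻¹ * x⁻¹) = q ^ k := by
      rw [← hk]
      exact (Subgroup.orderOf_mk _ _).symm
    have hdvd : q ^ k ∣ p := by
      rw [← hk']
      exact orderOf_dvd_of_pow_eq_one hy
    have hk0 : k = 0 := by
      by_contra hne
      have hq1 : q ∣ q ^ k := dvd_pow_self q hne
      have := hq1.trans hdvd
      exact hpq ((Nat.prime_dvd_prime_iff_eq (Fact.out) (Fact.out)).mp this).symm
    rw [hk0, pow_zero, orderOf_eq_one_iff] at hk'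
    have h7 : r * x = x * r := by
      calc r * x = (r * x * r⁻¹ * x⁻¹) * (x * r) := by group
        _ = x * r := by rw [hk', one_mul]
    exact h7.symm
  · -- commuting with `K`
    let β : MulAut (∀ i, A i) :=
      e.symm.trans ((MulAut.conjNormal x).trans e)
    have hβ : ∀ v, β v = e (MulAut.conjNormal x (e.symm v)) := fun v => rfl
    have hpow : ∀ n : ℕ, ∀ v, (β ^ n) v = e (MulAut.conjNormal (x ^ n) (e.symm v)) := by
      intro n v
      induction n generalizing v with
      | zero => simp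
      | succ n ih =>
        rw [pow_succ, MulAut.mul_apply, ih, hβ, pow_succ, map_mul, MulAut.mul_apply]
        simp
    have hβp : β ^ p = 1 := by
      ext v i
      rw [hpow, hEexp x hx]
      simp
    have hfix : ∀ i, ∀ u ∈ U i, β (Pi.mulSingle i u) = Pi.mulSingle i u := by
      intro i u hu
      rw [hβ]
      have h1 : MulAut.conjNormal x (e.symm (Pi.mulSingle i u)) = e.symm (Pi.mulSingle i u) := by
        apply Subtype.ext
        rw [MulAut.conjNormal_apply]
        have := hcomm i u hu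
        rw [this]
        group
      rw [h1]
      simp
    have hβ1 := aut_eq_one U hU0 (fun i => (hU i).2) β hβp hfix
    intro k hk'
    have h1 : β (e ⟨k, hk'⟩) = e ⟨k, hk'⟩ := by rw [hβ1]; rfl
    rw [hβ] at h1
    have h2 := e.injective h1
    simp only [MulEquiv.symm_apply_apply] at h2
    have h3 := congrArg Subtype.val h2
    rw [MulAut.conjNormal_apply] at h3
    calc x * k = (x * k * x⁻¹) * x := by group
      _ = k * x := by rw [h3]

/-- General form with an element and a `q`-subgroup. -/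
theorem homology_ne_of_components_general {p q : ℕ} [Fact p.Prime] [Fact q.Prime] (hpq : p ≠ q)
    {ι : Type*} [Fintype ι] {A : ι → Type*} [∀ i, Group (A i)] [∀ i, IsSimpleGroup (A i)]
    (U : ∀ i, Subgroup (A i)) (hU0 : ∀ i, U i ≠ ⊥) (hU : ∀ i, FreeSubgroup p (A i) (U i))
    (K : Subgroup G) [hK : K.Normal] (e : K ≃* ∀ i, A i)
    (R : Subgroup G) [hRn : R.Normal] (hR : IsPGroup q R)
    (g : G) (Q : Subgroup G) (hQ : IsPGroup q Q) (hgQ : Q ≤ Subgroup.centralizer ({g} : Set G))
    (hRQ : R ≤ Q)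
    (hUY : ∀ i, ∀ u ∈ U i, ((e.symm (Pi.mulSingle i u) : K) : G) ∈ Q ⊔ Subgroup.zpowers g)
    (hcen : ∀ x : G, x ^ p = 1 → (∀ r ∈ R, x * r = r * x) → (∀ k ∈ K, x * k = k * x) → x = 1) :
    ¬ ReducedHomologyVanishes p G := by
  apply homology_ne_of_commuting_pgroup p q g Q hQ hgQ
  intro E hE hgE hQE
  have hTE : Q ⊔ Subgroup.zpowers g ≤ Subgroup.normalizer (E : Set G) := by
    apply sup_le hQE
    rw [Subgroup.zpowers_le]
    exact hgE
  obtain ⟨hE0, hEexp, hEcomm⟩ := id hE
  apply hE0
  rw [eq_bot_iff]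
  intro x hx
  rw [Subgroup.mem_bot]
  obtain ⟨h1, h2⟩ := elemAb_centralizes hpq U hU0 hU K e R hR E hE (hRQ.trans hQE)
    (fun i u hu => hTE (hUY i u hu)) x hx
  exact hcen x (hEexp x hx) h1 h2

/-- The single prime form: `G` has a normal `q`-subgroup `R` and a normal subgroup `K` which is a
product of simple groups with `p`-free `q`-subgroups, and no element of order `p` centralizes
both `R` and `K`. -/
theorem homology_ne_of_components {p q : ℕ} [Fact p.Prime] [Fact q.Prime] (hpq : p ≠ q)
    {ι : Type*} [Fintype ι] {A : ι → Type*} [∀ i, Group (A i)] [∀ i, IsSimpleGroup (A i)]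
    (U : ∀ i, Subgroup (A i)) (hU0 : ∀ i, U i ≠ ⊥) (hUq : ∀ i, IsPGroup q (U i))
    (hU : ∀ i, FreeSubgroup p (A i) (U i))
    (K : Subgroup G) [hK : K.Normal] (e : K ≃* ∀ i, A i)
    (R : Subgroup G) [hRn : R.Normal] (hR : IsPGroup q R)
    (hcen : ∀ x : G, x ^ p = 1 → (∀ r ∈ R, x * r = r * x) → (∀ k ∈ K, x * k = k * x) → x = 1) :
    ¬ ReducedHomologyVanishes p G := by
  let P : Subgroup (∀ i, A i) := Subgroup.pi Set.univ U
  have hP : IsPGroup q P := by
    intro v
    have h : ∀ i, ∃ k, (v.1 i) ^ q ^ k = 1 := by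
      intro i
      obtain ⟨k, hk⟩ := hUq i ⟨v.1 i, v.2 i (Set.mem_univ i)⟩
      exact ⟨k, congrArg Subtype.val hk⟩
    choose k hk using h
    refine ⟨Finset.univ.sup k, ?_⟩
    apply Subtype.ext
    ext i
    have hle : k i ≤ Finset.univ.sup k := Finset.le_sup (Finset.mem_univ i)
    obtain ⟨m, hm⟩ := Nat.exists_eq_add_of_le hle
    show (v.1 i) ^ q ^ Finset.univ.sup k = 1
    rw [hm, pow_add, pow_mul, hk i, one_pow]
  let Ũ : Subgroup G := ((P.comap e.toMonoidHom).map K.subtype)
  have hŨ : IsPGroup q Ũ := by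
    have h1 : IsPGroup q (P.comap e.toMonoidHom) :=
      hP.comap_of_injective e.toMonoidHom e.injective
    exact h1.map K.subtype
  have hQ : IsPGroup q (R ⊔ Ũ : Subgroup G) := hR.to_sup_of_normal_left hŨ
  apply homology_ne_of_components_general hpq U hU0 hU K e R hR 1 (R ⊔ Ũ) hQ
  · intro y _
    rw [Subgroup.mem_centralizer_singleton_iff]
    simp
  · exact le_sup_left
  · intro i u hu
    apply Subgroup.mem_sup_left
    apply Subgroup.mem_sup_right
    refine ⟨e.symm (Pi.mulSingle i u), ?_, rfl⟩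
    show e.toMonoidHom (e.symm (Pi.mulSingle i u)) ∈ P
    simp only [MulEquiv.toMonoidHom_eq_coe, MonoidHom.coe_coe, MulEquiv.apply_symm_apply]
    intro j _
    by_cases hj : j = i
    · subst hj
      simpa using hu
    · rw [Pi.mulSingle_eq_of_ne hj]
      exact (U j).one_mem
  · exact hcen

end Main

end Vale.Agent.Lib.P240
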