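import Mathlib

/-!
Definitions for the Quillen poset `A_p(G)` and the reduced rational chain complex of its
order complex.
-/

namespace Vale.Agent.Lib.P240

open scoped Classical

variable {G : Type*} [Group G]

/-- `E` is a nontrivial elementary abelian `p`-subgroup of `G`, that is, a member of the
Quillen poset `A_p(G)` (for `p` prime). -/
def IsElemAb (p : ℕ) (E : Subgroup G) : Prop :=
  E ≠ ⊥ ∧ (∀ x ∈ E, x ^ p = 1) ∧ ∀ x ∈ E, ∀ y ∈ E, x * y = y * x

/-- `c` is a chain of the poset `A_p(G)`, given by its set of members. The empty set is the
empty chain (the simplex of dimension `-1` of the augmented order complex). -/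
def IsChainOf (p : ℕ) (c : Finset (Subgroup G)) : Prop :=
  (∀ E ∈ c, IsElemAb p E) ∧ ∀ E ∈ c, ∀ F ∈ c, E ≤ F ∨ F ≤ E

/-- Reduced rational chains of degree `k - 1` of the order complex of `A_p(G)`: rational
functions on finite sets of subgroups supported on the chains with exactly `k` members. -/
def chainSpace (p : ℕ) (G : Type*) [Group G] (k : ℕ) :
    Submodule ℚ (Finset (Subgroup G) → ℚ) where
  carrier := {f | ∀ c, f c ≠ 0 → IsChainOf p c ∧ c.card = k}
  add_mem' := by
    intro a b ha hb c hc
    by_cases h : a c = 0
    · apply hb
      intro hb0
      apply hc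
      simp [h, hb0]
    · exact ha c h
  zero_mem' := by
    intro c hc
    exact absurd rfl hc
  smul_mem' := by
    intro r a ha c hc
    apply ha
    intro h0
    apply hc
    simp [h0]

/-- The simplicial boundary in coefficient form: the coefficient of the chain `b` in the
boundary of `f` is the sum over `E ∉ b` of `(-1) ^ (position of E in insert E b)` times the
coefficient of `insert E b` in `f`, where the position of `E` is the number of members of `b`
strictly below `E`. -/
noncomputable def boundary [Finite G] (f : Finset (Subgroup G) → ℚ) (b : Finset (Subgroup G)) :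
    ℚ :=
  letI := Fintype.ofFinite (Subgroup G)
  ∑ E ∈ Finset.univ \ b, (-1 : ℚ) ^ (b.filter (· < E)).card * f (insert E b)

/-- The reduced rational homology of (the order complex of) `A_p(G)` vanishes in all degrees:
in each degree `k - 1`, with `k ≥ 0`, every cycle is a boundary. -/
def ReducedHomologyVanishes (p : ℕ) (G : Type*) [Group G] [Finite G] : Prop :=
  ∀ k, ∀ f ∈ chainSpace p G k, boundary f = 0 → ∃ h ∈ chainSpace p G (k + 1), boundary h = f

end Vale.Agent.Lib.P240
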