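import Vale.Agent.Lib.P240.Defs

/-!
A subgroup `U` of a group `L` is `p`-free when it normalizes no member of `A_p(L)` and when no
automorphism of `L` of order dividing `p` other than the identity fixes `U` pointwise.
-/

namespace Vale.Agent.Lib.P240

/-- `U` normalizes no nontrivial elementary abelian `p`-subgroup of `L`, and the only automorphism
`α` of `L` with `α ^ p = 1` that fixes `U` pointwise is the identity. -/
def FreeSubgroup (p : ℕ) (L : Type*) [Group L] (U : Subgroup L) : Prop :=
  (∀ E : Subgroup L, IsElemAb p E → ¬ U ≤ Subgroup.normalizer (E : Set L)) ∧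
    ∀ α : MulAut L, α ^ p = 1 → (∀ u ∈ U, α u = u) → α = 1

end Vale.Agent.Lib.P240
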