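import Vale.Agent.Lib.P240.DefsFree

/-!
Rank one data: a point `x₀` and an `r`-subgroup `U` of a transitive group, normal in the stabilizer
of `x₀` and regular on the other points.
-/

namespace Vale.Agent.Lib.P240

/-- `U` is an `r`-subgroup of `L` fixing `x₀`, normal in the stabilizer of `x₀`, and regular on the
set of points other than `x₀`, which has at least two elements. -/
structure IsRankOneData (r : ℕ) {L X : Type*} [Group L] [MulAction L X] (x₀ : X)
    (U : Subgroup L) : Prop where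
  isPGroup : IsPGroup r U
  fix : ∀ u ∈ U, u • x₀ = x₀
  normal : ∀ b : L, b • x₀ = x₀ → ∀ u ∈ U, b * u * b⁻¹ ∈ U
  trans : ∀ y y' : X, y ≠ x₀ → y' ≠ x₀ → ∃ u ∈ U, u • y = y'
  free : ∀ u ∈ U, ∀ y : X, y ≠ x₀ → u • y = y → u = 1
  two : ∃ y y' : X, y ≠ x₀ ∧ y' ≠ x₀ ∧ y ≠ y'

end Vale.Agent.Lib.P240
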