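import Vale.Agent.Lib.P240.FormB

/-!
The fixed point theorem for hyperelementary subgroups.
-/

namespace Vale.Agent.Lib.P240

open scoped Classical

variable {G : Type*} [Group G] [Finite G]

lemma cimg_zpow_eq {c : Finset (Subgroup G)} {g : G} (hc : cimg g c = c) (n : ℤ) :
    cimg (g ^ n) c = c := by
  have hinv : cimg g⁻¹ c = c := by
    conv_lhs => rw [← hc]
    rw [← cimg_mul, inv_mul_cancel, cimg_one]
  induction n using Int.induction_on with
  | zero => simp [cimg_one]
  | succ n ih =>
    rw [zpow_add_one, cimg_mul, hc, ih]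
  | pred n ih =>
    rw [zpow_sub_one, cimg_mul, hinv, ih]

/-- A subgroup normalizing the cyclic group generated by `g` permutes the chains fixed by `g`. -/
noncomputable def fixActionN (p k : ℕ) (g : G) (T : Subgroup G)
    (hT : ∀ t ∈ T, t⁻¹ * g * t ∈ Subgroup.zpowers g) :
    MulAction T {c : Ch p G k // cimg g c.1 = c.1} where
  smul h c := ⟨chAct p k (h : G) c.1, by
    show cimg g (cimg (h : G) c.1.1) = cimg (h : G) c.1.1
    obtain ⟨n, hn⟩ := Subgroup.mem_zpowers_iff.mp (hT h h.2)
    have h1 : g * (h : G) = (h : G) * ((h : G)⁻¹ * g * (h : G)) := by group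
    rw [← cimg_mul, h1, cimg_mul, ← hn, cimg_zpow_eq c.2]⟩
  one_smul c := by
    apply Subtype.ext
    apply Subtype.ext
    exact cimg_one _
  mul_smul h1 h2 c := by
    apply Subtype.ext
    apply Subtype.ext
    exact cimg_mul _ _ _

lemma card_fix_dvd_N (p k : ℕ) (g : G) (d : ℕ) (T : Subgroup G)
    (hT : ∀ t ∈ T, t⁻¹ * g * t ∈ Subgroup.zpowers g)
    (hyp : ∀ E : Subgroup G, IsElemAb p E → g ∈ Subgroup.normalizer (E : Set G) →
      d ∣ (Subgroup.normalizer (E : Set G)).relIndex T) :
    d ∣ Nat.card {c : Ch p G (k + 1) // cimg g c.1 = c.1} := by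
  letI := fixActionN p (k + 1) g T hT
  apply dvd_card_of_dvd_orbits (H := T)
  intro x
  have hne : x.1.1.Nonempty := by
    rw [← Finset.card_pos, x.1.2.2]
    omega
  obtain ⟨E, hE, htop⟩ := exists_top x.1.2.1.2 hne
  have hE1 : IsElemAb p E := x.1.2.1.1 E hE
  have hE2 : g ∈ Subgroup.normalizer (E : Set G) := top_fixed hE htop x.2
  refine (hyp E hE1 hE2).trans ?_
  have hle : MulAction.stabilizer T x ≤ (Subgroup.normalizer (E : Set G)).subgroupOf T := by
    intro h hh
    rw [Subgroup.mem_subgroupOf]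
    have h1 : h • x = x := hh
    have h2 : cimg (h : G) x.1.1 = x.1.1 := congrArg (fun y => y.1.1) h1
    exact top_fixed hE htop h2
  have h3 := Subgroup.index_dvd_of_le hle
  have h4 : (MulAction.stabilizer T x).index = Nat.card (MulAction.orbit T x) :=
    (MulAction.index_stabilizer _ x).trans (Nat.card_coe_set_eq _).symm
  rw [h4] at h3
  exact h3

/-- If `T` normalizes the cyclic group generated by `g`, and `d ≠ 1` divides the index of
`T ∩ N_G(E)` in `T` for each `E` in `A_p(G)` normalized by `g`, then the reduced homology of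
`A_p(G)` does not vanish. -/
theorem homology_ne_of_dvd_normalizing (p : ℕ) (g : G) (d : ℕ) (hd : d ≠ 1) (T : Subgroup G)
    (hT : ∀ t ∈ T, t⁻¹ * g * t ∈ Subgroup.zpowers g)
    (hyp : ∀ E : Subgroup G, IsElemAb p E → g ∈ Subgroup.normalizer (E : Set G) →
      d ∣ (Subgroup.normalizer (E : Set G)).relIndex T) :
    ¬ ReducedHomologyVanishes p G :=
  homology_ne_of_card_dvd p g d hd fun k => card_fix_dvd_N p k g d T hT hyp

/-- Fixed point theorem: if `T` has a normal cyclic subgroup generated by `g` with `T / ⟨g⟩` a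
`q`-group and `T` normalizes no member of `A_p(G)`, the reduced homology does not vanish. -/
theorem homology_ne_of_hyperelementary (p q : ℕ) [hq : Fact q.Prime] (g : G) (T : Subgroup G)
    (hT : ∀ t ∈ T, t⁻¹ * g * t ∈ Subgroup.zpowers g)
    (hq' : ∀ t ∈ T, ∃ k : ℕ, t ^ q ^ k ∈ Subgroup.zpowers g)
    (hfree : ∀ E : Subgroup G, IsElemAb p E → ¬ T ≤ Subgroup.normalizer (E : Set G)) :
    ¬ ReducedHomologyVanishes p G := by
  apply homology_ne_of_dvd_normalizing p g q hq.out.ne_one T hT
  intro E hE hgE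
  -- the index of `T ∩ N(E)` in `T` is a power of `q`
  set A : Subgroup T := (Subgroup.normalizer (E : Set G)).subgroupOf T with hA
  show q ∣ A.index
  set C : Subgroup T := (Subgroup.zpowers g).subgroupOf T with hC
  have hCn : C.Normal := by
    constructor
    intro c hc t
    rw [hC, Subgroup.mem_subgroupOf] at hc ⊢
    obtain ⟨n, hn⟩ := Subgroup.mem_zpowers_iff.mp hc
    have h1 : ((t : G)⁻¹)⁻¹ * g * ((t : G)⁻¹)⁻¹⁻¹ ∈ Subgroup.zpowers g := by
      have := hT (t : G)⁻¹ (T.inv_mem t.2)
      simpa using this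
    have h2 : ((t * c * t⁻¹ : T) : G) = (((t : G)) * g * (t : G)⁻¹) ^ n := by
      simp only [Subgroup.coe_mul, Subgroup.coe_inv, ← hn, conj_zpow]
    rw [h2]
    apply Subgroup.zpow_mem
    simpa using h1
  have hCA : C ≤ A := by
    intro c hc
    rw [hC, Subgroup.mem_subgroupOf] at hc
    rw [hA, Subgroup.mem_subgroupOf]
    exact (Subgroup.zpowers_le.mpr hgE) hc
  have hpg : IsPGroup q (T ⧸ C) := by
    intro x
    induction x using QuotientGroup.induction_on with
    | H t =>
      obtain ⟨k, hk⟩ := hq' t t.2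
      refine ⟨k, ?_⟩
      rw [← QuotientGroup.mk_pow]
      apply (QuotientGroup.eq_one_iff _).mpr
      rw [hC, Subgroup.mem_subgroupOf]
      simpa using hk
  obtain ⟨n, hn⟩ := IsPGroup.iff_card.mp hpg
  have hCi : C.index = q ^ n := hn
  have hdvd : A.index ∣ q ^ n := by
    rw [← hCi]
    exact Subgroup.index_dvd_of_le hCA
  obtain ⟨m, -, hm⟩ := (Nat.dvd_prime_pow hq.out).mp hdvd
  rw [hm]
  rcases Nat.eq_zero_or_pos m with h0 | hpos
  · exfalso
    rw [h0, pow_zero] at hm
    apply hfree E hE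
    have htop : A = ⊤ := Subgroup.index_eq_one.mp hm
    intro t ht
    have : (⟨t, ht⟩ : T) ∈ A := by rw [htop]; exact Subgroup.mem_top _
    rw [hA, Subgroup.mem_subgroupOf] at this
    exact this
  · exact dvd_pow_self q hpos.ne'

end Vale.Agent.Lib.P240
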