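import Vale.Agent.Lib.P240.Chains

/-!
The Lefschetz and orbit-counting criterion for the nonvanishing of the reduced homology of the
Quillen poset.
-/

namespace Vale.Agent.Lib.P240

open scoped Classical

variable {G : Type*} [Group G]

section Act

variable [Finite G]

/-- The conjugation action on coefficient functions. -/
noncomputable def act (g : G) (f : Finset (Subgroup G) → ℚ) : Finset (Subgroup G) → ℚ :=
  fun c => f (cimg g⁻¹ c)

lemma act_mem {p k : ℕ} (g : G) {f : Finset (Subgroup G) → ℚ} (hf : f ∈ chainSpace p G k) :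
    act g f ∈ chainSpace p G k := by
  intro c hc
  obtain ⟨h1, h2⟩ := hf _ hc
  have h3 := isChainOf_cimg g h1
  rw [← cimg_mul, mul_inv_cancel, cimg_one] at h3
  refine ⟨h3, ?_⟩
  rwa [card_cimg] at h2

lemma filter_lt_cimg (g : G) (b : Finset (Subgroup G)) (E : Subgroup G) :
    ((cimg g b).filter (· < conj g E)).card = (b.filter (· < E)).card := by
  have : (cimg g b).filter (· < conj g E) = (b.filter (· < E)).image (conj g) := by
    ext F
    simp only [Finset.mem_filter, Finset.mem_image, cimg]
    constructor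
    · rintro ⟨⟨X, hX, rfl⟩, h2⟩
      exact ⟨X, ⟨hX, conj_lt_conj.mp h2⟩, rfl⟩
    · rintro ⟨X, ⟨hX, h2⟩, rfl⟩
      exact ⟨⟨X, hX, rfl⟩, conj_lt_conj.mpr h2⟩
  have hinj : Function.Injective (conj g) := (conjEquiv g).injective
  rw [this, Finset.card_image_of_injective _ hinj]

lemma boundary_act (g : G) (f : Finset (Subgroup G) → ℚ) :
    boundary (act g f) = act g (boundary f) := by
  let := Fintype.ofFinite (Subgroup G)
  ext b
  simp only [act]
  rw [boundary_apply, boundary_apply]
  refine Finset.sum_nbij' (conj g⁻¹) (conj g) ?_ ?_ ?_ ?_ ?_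
  · intro E hE
    simp only [Finset.mem_sdiff, Finset.mem_univ, true_and] at hE ⊢
    intro h
    rw [mem_cimg, inv_inv, conj_conj_inv] at h
    exact hE h
  · intro E hE
    simp only [Finset.mem_sdiff, Finset.mem_univ, true_and] at hE ⊢
    intro h
    apply hE
    rw [mem_cimg, inv_inv]
    exact h
  · intro E _
    exact conj_conj_inv g E
  · intro E _
    exact conj_inv_conj g E
  · intro E _
    rw [filter_lt_cimg]
    show _ * f (cimg g⁻¹ (insert E b)) = _
    rw [cimg_insert]

/-- Chains with exactly `k` members. -/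
def Ch (p : ℕ) (G : Type*) [Group G] (k : ℕ) : Type _ :=
  {c : Finset (Subgroup G) // IsChainOf p c ∧ c.card = k}

instance (p k : ℕ) : Finite (Ch p G k) := by
  unfold Ch; infer_instance

/-- The rational chain complex as a family of linear maps. -/
noncomputable def dmap (p k : ℕ) : chainSpace p G (k + 1) →ₗ[ℚ] chainSpace p G k where
  toFun f := ⟨boundary f.1, boundary_mem f.2⟩
  map_add' f g := Subtype.ext (boundary_add _ _)
  map_smul' r f := Subtype.ext (boundary_smul _ _)

noncomputable def phimap (p k : ℕ) (g : G) : chainSpace p G k →ₗ[ℚ] chainSpace p G k where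
  toFun f := ⟨act g f.1, act_mem g f.2⟩
  map_add' f h := by
    apply Subtype.ext
    ext c
    simp [act]
  map_smul' r f := by
    apply Subtype.ext
    ext c
    simp [act]

/-- The chain space is the function space on chains. -/
noncomputable def chEquiv (p k : ℕ) : chainSpace p G k ≃ₗ[ℚ] (Ch p G k → ℚ) where
  toFun f c := f.1 c.1
  map_add' f h := by
    ext c
    simp
  map_smul' r f := by
    ext c
    simp
  invFun u := ⟨fun c => if h : IsChainOf p c ∧ c.card = k then u ⟨c, h⟩ else 0, by
    intro c hc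
    by_contra h
    exact hc (dif_neg h)⟩
  left_inv f := by
    apply Subtype.ext
    ext c
    by_cases h : IsChainOf p c ∧ c.card = k
    · simp [h]
    · simp only [h, dite_false]
      by_contra h'
      exact h (f.2 c (Ne.symm h'))
  right_inv u := by
    ext c
    have := c.2
    simp [this]
    rfl

lemma trace_funLeft {α : Type*} [Finite α] (σ : α → α) :
    LinearMap.trace ℚ (α → ℚ) (LinearMap.funLeft ℚ ℚ σ) = (Nat.card {a // σ a = a} : ℚ) := by
  classical
  cases nonempty_fintype α
  rw [LinearMap.trace_eq_matrix_trace ℚ (Pi.basisFun ℚ α), Matrix.trace]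
  simp only [Matrix.diag_apply, LinearMap.toMatrix_apply, Pi.basisFun_repr, Pi.basisFun_apply,
    LinearMap.funLeft_apply, Pi.single_apply]
  rw [Nat.card_eq_fintype_card, Fintype.card_subtype]
  simp [Finset.sum_ite]

/-- Conjugation on chains. -/
noncomputable def chAct (p k : ℕ) (g : G) (c : Ch p G k) : Ch p G k :=
  ⟨cimg g c.1, isChainOf_cimg g c.2.1, by rw [card_cimg]; exact c.2.2⟩

lemma trace_phimap (p k : ℕ) (g : G) :
    LinearMap.trace ℚ (chainSpace p G k) (phimap p k g) =
      (Nat.card {c : Ch p G k // cimg g c.1 = c.1} : ℚ) := by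
  have h1 := LinearMap.trace_conj' (phimap p k g) (chEquiv p k (G := G))
  rw [← h1]
  have h2 : (chEquiv p k (G := G)).conj (phimap p k g) = LinearMap.funLeft ℚ ℚ (chAct p k g⁻¹) := by
    ext u c
    simp only [LinearEquiv.conj_apply, LinearMap.coe_comp, LinearEquiv.coe_coe,
      Function.comp_apply, LinearMap.funLeft_apply]
    simp only [chEquiv, phimap, act, chAct]
    exact dif_pos (chAct p k g⁻¹ c).2
  rw [h2, trace_funLeft]
  congr 1
  apply Nat.card_congr
  refine Equiv.subtypeEquivRight fun c => ?_
  constructor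
  · intro h
    have h3 : cimg g⁻¹ c.1 = c.1 := congrArg Subtype.val h
    have h4 : cimg g (cimg g⁻¹ c.1) = cimg g c.1 := by rw [h3]
    rw [← cimg_mul, mul_inv_cancel, cimg_one] at h4
    exact h4.symm
  · intro h
    apply Subtype.ext
    show cimg g⁻¹ c.1 = c.1
    have h4 : cimg g⁻¹ (cimg g c.1) = cimg g⁻¹ c.1 := by rw [h]
    rw [← cimg_mul, inv_mul_cancel, cimg_one] at h4
    exact h4.symm

lemma exists_top {c : Finset (Subgroup G)} (hc : ∀ E ∈ c, ∀ F ∈ c, E ≤ F ∨ F ≤ E)
    (hne : c.Nonempty) : ∃ E ∈ c, ∀ F ∈ c, F ≤ E := by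
  obtain ⟨E, hE, hmax⟩ := Finset.exists_max_image c (fun E => Nat.card E) hne
  refine ⟨E, hE, fun F hF => ?_⟩
  rcases hc E hE F hF with h | h
  · have := Subgroup.eq_of_le_of_card_ge h (hmax F hF)
    rw [this]
  · exact h

lemma mem_normalizer_of_conj_eq {h : G} {E : Subgroup G} (he : conj h E = E) :
    h ∈ Subgroup.normalizer (E : Set G) := by
  rw [Subgroup.mem_normalizer_iff_map_conj_eq]
  exact he

lemma top_fixed {h : G} {c : Finset (Subgroup G)} {E : Subgroup G} (hE : E ∈ c)
    (htop : ∀ F ∈ c, F ≤ E) (hfix : cimg h c = c) : h ∈ Subgroup.normalizer (E : Set G) := by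
  apply mem_normalizer_of_conj_eq
  apply le_antisymm
  · apply htop
    rw [← hfix]
    simp only [cimg, Finset.mem_image]
    exact ⟨E, hE, rfl⟩
  · have h1 : conj h⁻¹ E ∈ c := by
      have : E ∈ cimg h c := by rwa [hfix]
      exact mem_cimg.mp this
    have h2 := htop _ h1
    have h3 : conj h (conj h⁻¹ E) ≤ conj h E := conj_le_conj.mpr h2
    rwa [conj_conj_inv] at h3

/-- Orbit counting: if every orbit has size divisible by `d`, so does the whole set. -/
lemma dvd_card_of_dvd_orbits {H α : Type*} [Group H] [MulAction H α] [Finite α] (d : ℕ)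
    (h : ∀ x : α, d ∣ Nat.card (MulAction.orbit H x)) : d ∣ Nat.card α := by
  classical
  let Ω := MulAction.orbitRel.Quotient H α
  have hfin : Finite Ω := Quotient.finite _
  cases nonempty_fintype Ω
  rw [Nat.card_congr (MulAction.selfEquivSigmaOrbits H α), Nat.card_sigma]
  exact Finset.dvd_sum fun ω _ => h _

/-- The centralizer of `g` permutes the chains fixed by `g`. -/
noncomputable instance fixAction (p k : ℕ) (g : G) :
    MulAction (Subgroup.centralizer ({g} : Set G)) {c : Ch p G k // cimg g c.1 = c.1} where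
  smul h c := ⟨chAct p k (h : G) c.1, by
    show cimg g (cimg (h : G) c.1.1) = cimg (h : G) c.1.1
    have hc : (h : G) * g = g * (h : G) := Subgroup.mem_centralizer_singleton_iff.mp h.2
    rw [← cimg_mul, ← hc, cimg_mul, c.2]⟩
  one_smul c := by
    apply Subtype.ext
    apply Subtype.ext
    exact cimg_one _
  mul_smul h1 h2 c := by
    apply Subtype.ext
    apply Subtype.ext
    exact cimg_mul _ _ _

lemma card_fix_dvd (p k : ℕ) (g : G) (d : ℕ)
    (hyp : ∀ E : Subgroup G, IsElemAb p E → g ∈ Subgroup.normalizer (E : Set G) →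
      d ∣ (Subgroup.normalizer (E : Set G)).relIndex (Subgroup.centralizer ({g} : Set G))) :
    d ∣ Nat.card {c : Ch p G (k + 1) // cimg g c.1 = c.1} := by
  apply dvd_card_of_dvd_orbits (H := Subgroup.centralizer ({g} : Set G))
  intro x
  have hne : x.1.1.Nonempty := by
    rw [← Finset.card_pos, x.1.2.2]
    omega
  obtain ⟨E, hE, htop⟩ := exists_top x.1.2.1.2 hne
  have hE1 : IsElemAb p E := x.1.2.1.1 E hE
  have hE2 : g ∈ Subgroup.normalizer (E : Set G) := top_fixed hE htop x.2
  refine (hyp E hE1 hE2).trans ?_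
  have hle : MulAction.stabilizer (Subgroup.centralizer ({g} : Set G)) x ≤
      (Subgroup.normalizer (E : Set G)).subgroupOf (Subgroup.centralizer ({g} : Set G)) := by
    intro h hh
    rw [Subgroup.mem_subgroupOf]
    have h1 : h • x = x := hh
    have h2 : cimg (h : G) x.1.1 = x.1.1 := congrArg (fun y => y.1.1) h1
    exact top_fixed hE htop h2
  have h3 := Subgroup.index_dvd_of_le hle
  have h4 : (MulAction.stabilizer (Subgroup.centralizer ({g} : Set G)) x).index =
      Nat.card (MulAction.orbit (Subgroup.centralizer ({g} : Set G)) x) :=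
    (MulAction.index_stabilizer _ x).trans (Nat.card_coe_set_eq _).symm
  rw [h4] at h3
  exact h3

end Act

/-- The Lefschetz count: the numbers of nonempty chains fixed by `g` cannot all be divisible by a
number `d ≠ 1` when the reduced homology vanishes. -/
theorem homology_ne_of_card_dvd [Finite G] (p : ℕ) (g : G) (d : ℕ) (hd : d ≠ 1)
    (hcard : ∀ k, d ∣ Nat.card {c : Ch p G (k + 1) // cimg g c.1 = c.1}) :
    ¬ ReducedHomologyVanishes p G := by
  intro hV
  have hfin : Finite (Subgroup G) := inferInstance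
  let n := Nat.card (Subgroup G) + 1
  have hsub : Subsingleton (chainSpace p G n) := by
    constructor
    intro f h
    apply Subtype.ext
    have hz : ∀ u : chainSpace p G n, u.1 = 0 := by
      intro u
      ext c
      by_contra hc
      obtain ⟨-, hcard⟩ := u.2 c hc
      cases nonempty_fintype (Subgroup G)
      have h5 : c.card ≤ Fintype.card (Subgroup G) := Finset.card_le_univ c
      have h6 : Nat.card (Subgroup G) = Fintype.card (Subgroup G) := Nat.card_eq_fintype_card
      simp only [n] at hcard
      omega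
    rw [hz f, hz h]
  have hmain := alt_trace_eq_zero (V := fun k => chainSpace p G k)
    (fun k => dmap p k) (fun k => phimap p k g)
    (by
      intro k x
      exact Subtype.ext (boundary_act g x.1).symm)
    (by
      intro x
      have h1 : boundary x.1 = 0 := by
        have h2 : boundary x.1 ∈ chainSpace p G 0 := by
          let := Fintype.ofFinite (Subgroup G)
          intro c hc
          rw [boundary_apply] at hc
          obtain ⟨E, _, hne⟩ := Finset.exists_ne_zero_of_sum_ne_zero hc
          have hf : x.1 (insert E c) ≠ 0 := fun h => hne (by simp [h])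
          have := (x.2 _ hf).2
          simp at this
        ext c
        by_contra hc
        let := Fintype.ofFinite (Subgroup G)
        have hc' := hc
        rw [Pi.zero_apply, boundary_apply] at hc'
        obtain ⟨E, _, hne⟩ := Finset.exists_ne_zero_of_sum_ne_zero hc'
        have hf : x.1 (insert E c) ≠ 0 := fun h => hne (by simp [h])
        have := (x.2 _ hf).2
        simp at this
      obtain ⟨y, hy, hy2⟩ := hV 0 x.1 x.2 h1
      exact ⟨⟨y, hy⟩, Subtype.ext hy2⟩)
    (by
      intro k x
      apply Subtype.ext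
      exact boundary_boundary (k := k + 2) x.2)
    (by
      intro k x hx
      have h1 : boundary x.1 = 0 := congrArg Subtype.val hx
      obtain ⟨y, hy, hy2⟩ := hV (k + 1) x.1 x.2 h1
      exact ⟨⟨y, hy⟩, Subtype.ext hy2⟩)
    n hsub
  simp only [trace_phimap] at hmain
  simp only [n] at hmain
  rw [Finset.sum_range_succ'] at hmain
  have h0 : Nat.card {c : Ch p G 0 // cimg g c.1 = c.1} = 1 := by
    have hch : IsChainOf p (∅ : Finset (Subgroup G)) := ⟨by simp, by simp⟩
    let x0 : {c : Ch p G 0 // cimg g c.1 = c.1} :=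
      ⟨⟨∅, hch, rfl⟩, by simp [cimg]⟩
    rw [Nat.card_eq_one_iff_unique]
    refine ⟨⟨fun a b => ?_⟩, ⟨x0⟩⟩
    apply Subtype.ext
    apply Subtype.ext
    have ha := Finset.card_eq_zero.mp a.1.2.2
    have hb := Finset.card_eq_zero.mp b.1.2.2
    rw [ha, hb]
  rw [h0] at hmain
  choose m hm using hcard
  have hZ : (∑ k ∈ Finset.range (Nat.card (Subgroup G)), (-1 : ℤ) ^ (k + 1) * (d * m k : ℤ)) + 1 = 0 := by
    have : ((∑ k ∈ Finset.range (Nat.card (Subgroup G)), (-1 : ℤ) ^ (k + 1) * (d * m k : ℤ)) + 1 : ℤ)
        = (0 : ℚ) := by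
      rw [← hmain]
      push_cast
      congr 1
      · refine Finset.sum_congr rfl fun k _ => ?_
        rw [hm k]
        push_cast
        ring
      · simp
    exact_mod_cast this
  have hdvd : (d : ℤ) ∣ 1 := by
    have h1 : (d : ℤ) ∣ ∑ k ∈ Finset.range (Nat.card (Subgroup G)), (-1 : ℤ) ^ (k + 1) * (d * m k : ℤ) :=
      Finset.dvd_sum fun k _ => Dvd.dvd.mul_left (Dvd.intro _ rfl) _
    have h2 : (1 : ℤ) = - ∑ k ∈ Finset.range (Nat.card (Subgroup G)), (-1 : ℤ) ^ (k + 1) * (d * m k : ℤ) := by
      linarith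
    rw [h2]
    exact (dvd_neg).mpr h1
  have : d ∣ 1 := by exact_mod_cast hdvd
  exact hd (Nat.dvd_one.mp this)

/-- Main criterion. -/
theorem homology_ne_of_dvd [Finite G] (p : ℕ) (g : G) (d : ℕ) (hd : d ≠ 1)
    (hyp : ∀ E : Subgroup G, IsElemAb p E → g ∈ Subgroup.normalizer (E : Set G) →
      d ∣ (Subgroup.normalizer (E : Set G)).relIndex (Subgroup.centralizer ({g} : Set G))) :
    ¬ ReducedHomologyVanishes p G :=
  homology_ne_of_card_dvd p g d hd fun k => card_fix_dvd p k g d hyp

end Vale.Agent.Lib.P240
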