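import Vale.Agent.Lib.P240.RankOne

/-!
The projective line over a finite field: the unipotent radical of a point stabilizer gives
rank one data for `PSL(2, F)`.
-/

namespace Vale.Agent.Lib.P240

open Matrix Matrix.SpecialLinearGroup
open scoped LinearAlgebra.Projectivization MatrixGroups Pointwise

variable {F : Type*} [Field F]

/-- The upper unitriangular matrix with entry `b`. -/
def tvec (b : F) : SL(2, F) := ⟨!![1, b; 0, 1], by simp [Matrix.det_fin_two]⟩

lemma tvec_zero : tvec (0 : F) = 1 := by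
  ext i j
  fin_cases i <;> fin_cases j <;> simp [tvec]

lemma tvec_add (a b : F) : tvec (a + b) = tvec a * tvec b := by
  apply Subtype.ext
  show !![1, a + b; 0, 1] = !![1, a; 0, 1] * !![1, b; 0, 1]
  ext i j
  fin_cases i <;> fin_cases j <;> simp [Matrix.mul_apply, Fin.sum_univ_two, add_comm]

lemma tvec_pow (b : F) (n : ℕ) : tvec b ^ n = tvec ((n : F) * b) := by
  induction n with
  | zero => simp [tvec_zero]
  | succ n ih =>
    rw [pow_succ, ih, ← tvec_add]
    congr 1
    push_cast
    ring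

lemma tvec_smul (b : F) (w : Fin 2 → F) : tvec b • w = ![w 0 + b * w 1, w 1] := by
  rw [Matrix.SpecialLinearGroup.smul_def]
  ext i
  fin_cases i <;> simp [tvec, Matrix.mulVec, dotProduct, Fin.sum_univ_two]

lemma e0_ne : (![1, 0] : Fin 2 → F) ≠ 0 := by
  intro h
  have := congrFun h 0
  simp at this

lemma pt_ne (x : F) : (![x, 1] : Fin 2 → F) ≠ 0 := by
  intro h
  have := congrFun h 1
  simp at this

/-- The point at infinity of the projective line. -/
noncomputable def ptInf (F : Type*) [Field F] : ℙ F (Fin 2 → F) :=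
  Projectivization.mk F ![1, 0] e0_ne

/-- The affine point of the projective line with coordinate `x`. -/
noncomputable def ptAff (x : F) : ℙ F (Fin 2 → F) :=
  Projectivization.mk F ![x, 1] (pt_ne x)

lemma exists_ptAff (P : ℙ F (Fin 2 → F)) (hP : P ≠ ptInf F) : ∃ x, P = ptAff x := by
  induction P using Projectivization.ind with
  | _ v hv =>
    by_cases h1 : v 1 = 0
    · exfalso
      apply hP
      rw [ptInf, Projectivization.mk_eq_mk_iff']
      refine ⟨v 0, ?_⟩
      ext i
      fin_cases i <;> simp [h1]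
    · refine ⟨v 0 / v 1, ?_⟩
      rw [ptAff, Projectivization.mk_eq_mk_iff']
      refine ⟨v 1, ?_⟩
      ext i
      fin_cases i
      · simp [mul_div_cancel₀, h1]
      · simp

lemma ptAff_ne (x : F) : ptAff x ≠ ptInf F := by
  intro h
  rw [ptAff, ptInf, Projectivization.mk_eq_mk_iff'] at h
  obtain ⟨a, ha⟩ := h
  have := congrFun ha 1
  simp at this

lemma ptAff_inj {x y : F} (h : ptAff x = ptAff y) : x = y := by
  rw [ptAff, ptAff, Projectivization.mk_eq_mk_iff'] at h
  obtain ⟨a, ha⟩ := h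
  have h1 := congrFun ha 1
  have h0 := congrFun ha 0
  simp at h1 h0
  rw [h1] at h0
  simpa using h0.symm

lemma tvec_smul_ptAff (b x : F) : tvec b • ptAff x = ptAff (x + b) := by
  rw [ptAff, Projectivization.smul_mk, ptAff, Projectivization.mk_eq_mk_iff']
  refine ⟨1, ?_⟩
  rw [tvec_smul]
  ext i
  fin_cases i <;> simp

lemma tvec_smul_ptInf (b : F) : tvec b • ptInf F = ptInf F := by
  rw [ptInf, Projectivization.smul_mk, Projectivization.mk_eq_mk_iff']
  refine ⟨1, ?_⟩
  rw [tvec_smul]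
  ext i
  fin_cases i <;> simp

lemma tvec_mem_lineStab (b : F) :
    tvec b ∈ lineStab (ptInf F).submodule := by
  rw [ptInf, Projectivization.submodule_mk]
  intro w
  rw [Submodule.mem_span_singleton]
  refine ⟨b * w 1, ?_⟩
  rw [tvec_smul]
  ext i
  fin_cases i <;> simp

lemma eq_tvec_of_mem_lineStab (A : SL(2, F)) (hA : A ∈ lineStab (ptInf F).submodule) :
    ∃ b, A = tvec b := by
  rw [ptInf, Projectivization.submodule_mk] at hA
  have key : ∀ w : Fin 2 → F, (A • w) 1 = w 1 := by
    intro w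
    obtain ⟨c, hc⟩ := Submodule.mem_span_singleton.mp (hA w)
    have := congrFun hc 1
    simp at this
    exact (sub_eq_zero.mp this.symm)
  have h10 : A.1 1 0 = 0 := by
    have := key ![1, 0]
    rw [Matrix.SpecialLinearGroup.smul_def] at this
    simpa [Matrix.mulVec, dotProduct, Fin.sum_univ_two] using this
  have h11 : A.1 1 1 = 1 := by
    have := key ![0, 1]
    rw [Matrix.SpecialLinearGroup.smul_def] at this
    simpa [Matrix.mulVec, dotProduct, Fin.sum_univ_two] using this
  have hdet : A.1 0 0 * A.1 1 1 - A.1 0 1 * A.1 1 0 = 1 := by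
    have := A.2
    rwa [Matrix.det_fin_two] at this
  rw [h10, h11] at hdet
  have h00 : A.1 0 0 = 1 := by simpa using hdet
  refine ⟨A.1 0 1, ?_⟩
  ext i j
  fin_cases i <;> fin_cases j <;> simp [tvec, h00, h10, h11]

/-- The image of `tvec b` in `PSL(2, F)` acts as `tvec b`. -/
lemma psl_smul (A : SL(2, F)) (P : ℙ F (Fin 2 → F)) :
    (A : Matrix.ProjectiveSpecialLinearGroup (Fin 2) F) • P = A • P := rfl

/-- The rank one data of `PSL(2, F)`: the point at infinity and the translations. -/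
theorem isRankOneData_psl (r : ℕ) [CharP F r] [Fact r.Prime] (htwo : (0 : F) ≠ 1) :
    IsRankOneData r (ptInf F) (PSL.iwasawaT (ι := Fin 2) (ptInf F)) := by
  have hmem : ∀ u ∈ PSL.iwasawaT (ι := Fin 2) (ptInf F), ∃ b : F,
      u = ((tvec b : SL(2, F)) : Matrix.ProjectiveSpecialLinearGroup (Fin 2) F) := by
    intro u hu
    obtain ⟨A, hA, rfl⟩ := Subgroup.mem_map.mp hu
    obtain ⟨b, rfl⟩ := eq_tvec_of_mem_lineStab A hA
    exact ⟨b, rfl⟩
  have hmem' : ∀ b : F, ((tvec b : SL(2, F)) : Matrix.ProjectiveSpecialLinearGroup (Fin 2) F) ∈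
      PSL.iwasawaT (ι := Fin 2) (ptInf F) := fun b =>
    Subgroup.mem_map.mpr ⟨tvec b, tvec_mem_lineStab b, rfl⟩
  refine ⟨?_, ?_, ?_, ?_, ?_, ?_⟩
  · intro u
    obtain ⟨b, hb⟩ := hmem u.1 u.2
    refine ⟨1, ?_⟩
    apply Subtype.ext
    show u.1 ^ r ^ 1 = 1
    rw [hb, pow_one, ← QuotientGroup.mk_pow, tvec_pow, CharP.cast_eq_zero, zero_mul, tvec_zero]
    rfl
  · intro u hu
    obtain ⟨b, rfl⟩ := hmem u hu
    rw [psl_smul, tvec_smul_ptInf]
  · intro g hg u hu
    have hconj := (PSL2.Iwasawa (F := F)).is_conj g (ptInf F)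
    rw [hg] at hconj
    have h2 : PSL.iwasawaT (ι := Fin 2) (ptInf F) =
        MulAut.conj g • PSL.iwasawaT (ι := Fin 2) (ptInf F) := hconj
    rw [h2]
    exact Subgroup.mem_pointwise_smul_iff_inv_smul_mem.mpr (by simpa [mul_assoc] using hu)
  · intro y y' hy hy'
    obtain ⟨x, rfl⟩ := exists_ptAff y hy
    obtain ⟨x', rfl⟩ := exists_ptAff y' hy'
    refine ⟨_, hmem' (x' - x), ?_⟩
    rw [psl_smul, tvec_smul_ptAff, add_sub_cancel]
  · intro u hu y hy huy
    obtain ⟨x, rfl⟩ := exists_ptAff y hy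
    obtain ⟨b, rfl⟩ := hmem u hu
    rw [psl_smul, tvec_smul_ptAff] at huy
    have h0 : b = 0 := by
      have := ptAff_inj huy
      simpa using this
    rw [h0, tvec_zero]
    rfl
  · exact ⟨ptAff 0, ptAff 1, ptAff_ne _, ptAff_ne _, fun h => htwo (ptAff_inj h)⟩

end Vale.Agent.Lib.P240
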