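import Vale.Agent.Lib.P240.PSLTwo

/-!
Products of projective special linear groups in a single characteristic.
-/

namespace Vale.Agent.Lib.P240

open Matrix Matrix.SpecialLinearGroup
open scoped LinearAlgebra.Projectivization MatrixGroups

lemma freeSubgroup_psl {F : Type*} [Field F] {p r : ℕ} [Fact p.Prime] [Fact r.Prime]
    [CharP F r] (hpr : p ≠ r) [IsSimpleGroup PSL(2, F)] :
    FreeSubgroup p PSL(2, F) (PSL.iwasawaT (ι := Fin 2) (ptInf F)) :=
  freeSubgroup_of_rankOne hpr (isRankOneData_psl r zero_ne_one)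

/-- Products of simple groups with rank one data in a single characteristic. -/
theorem homology_ne_of_rank_one {p r : ℕ} [Fact p.Prime] [Fact r.Prime] (hpr : p ≠ r)
    {G : Type*} [Group G] [Finite G]
    {ι : Type*} [Fintype ι] {A : ι → Type*} [∀ i, Group (A i)] [∀ i, IsSimpleGroup (A i)]
    {X : ι → Type*} [∀ i, MulAction (A i) (X i)] [∀ i, FaithfulSMul (A i) (X i)]
    [∀ i, MulAction.IsPretransitive (A i) (X i)]
    (x₀ : ∀ i, X i) (U : ∀ i, Subgroup (A i)) (hU : ∀ i, IsRankOneData r (x₀ i) (U i))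
    (K : Subgroup G) [K.Normal] (e : K ≃* ∀ i, A i)
    (R : Subgroup G) [R.Normal] (hR : IsPGroup r R)
    (hcen : ∀ x : G, x ^ p = 1 → (∀ y ∈ R, x * y = y * x) → (∀ k ∈ K, x * k = k * x) → x = 1) :
    ¬ ReducedHomologyVanishes p G :=
  homology_ne_of_components (q := r) hpr U (fun i => rankOne_U_ne_bot (hU i))
    (fun i => (hU i).isPGroup) (fun i => freeSubgroup_of_rankOne hpr (hU i)) K e R hR hcen

theorem homology_ne_of_psl_two {p r : ℕ} [Fact p.Prime] [Fact r.Prime] (hpr : p ≠ r)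
    {G : Type*} [Group G] [Finite G]
    {ι : Type*} [Fintype ι] {F : ι → Type*} [∀ i, Field (F i)] [∀ i, Finite (F i)]
    [∀ i, CharP (F i) r] (hF : ∀ i, 4 ≤ Nat.card (F i))
    (K : Subgroup G) [K.Normal] (e : K ≃* ∀ i, PSL(2, F i))
    (R : Subgroup G) [R.Normal] (hR : IsPGroup r R)
    (hcen : ∀ x : G, x ^ p = 1 → (∀ y ∈ R, x * y = y * x) → (∀ k ∈ K, x * k = k * x) → x = 1) :
    ¬ ReducedHomologyVanishes p G := by
  have : ∀ i, IsSimpleGroup PSL(2, F i) := fun i =>
    Matrix.ProjectiveSpecialLinearGroup.rank_two_simple (hF i)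
  refine homology_ne_of_components (q := r) hpr
    (fun i => PSL.iwasawaT (ι := Fin 2) (ptInf (F i))) ?_ ?_ ?_ K e R hR hcen
  · intro i
    exact rankOne_U_ne_bot (isRankOneData_psl r zero_ne_one)
  · intro i
    exact (isRankOneData_psl r zero_ne_one).isPGroup
  · intro i
    exact freeSubgroup_psl hpr

end Vale.Agent.Lib.P240
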