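import Vale.Agent.Lib.P240.Hyper

/-!
Permutation families: a hyperelementary subgroup containing transitive pieces with disjoint supports.
-/

namespace Vale.Agent.Lib.P240

variable {G : Type*} [Group G] {Ω : Type*} [MulAction G Ω]

/-- A `p`-subgroup stabilizing a finite set without fixed points on it: `p` divides its size. -/
lemma prime_dvd_ncard_of_no_fixed [Finite Ω] (p : ℕ) [Fact p.Prime] (P : Subgroup G)
    (hP : IsPGroup p P) (S : Set Ω) (hS : ∀ u ∈ P, ∀ s ∈ S, u • s ∈ S)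
    (hf : ∀ s ∈ S, ∃ u ∈ P, u • s ≠ s) : p ∣ S.ncard := by
  let S' : SubMulAction P Ω :=
    { carrier := S
      smul_mem' := fun u s hs => hS u.1 u.2 s hs }
  have h1 := hP.card_modEq_card_fixedPoints S'
  have h2 : MulAction.fixedPoints P S' = ∅ := by
    ext s
    simp only [MulAction.mem_fixedPoints, Set.mem_empty_iff_false, iff_false, not_forall]
    obtain ⟨u, hu, hus⟩ := hf s.1 s.2
    refine ⟨⟨u, hu⟩, ?_⟩
    intro h
    exact hus (congrArg Subtype.val h)
  rw [h2] at h1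
  have h3 : Nat.card S' = S.ncard := rfl
  rw [← h3]
  have h4 : Nat.card (↑(∅ : Set S')) = 0 := by simp
  rw [h4] at h1
  exact (Nat.modEq_zero_iff_dvd).mp h1

/-- Elementary abelian groups are `p`-groups. -/
lemma isElemAb_isPGroup {p : ℕ} {E : Subgroup G} (hE : IsElemAb p E) : IsPGroup p E := by
  intro x
  refine ⟨1, ?_⟩
  apply Subtype.ext
  simpa using hE.2.1 x.1 x.2

/-- The transitive pieces force the elementary abelian subgroup to fix their supports pointwise. -/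
theorem fixed_on_piece [Finite Ω] {p : ℕ} [hp0 : Fact p.Prime] {I : Type*}
    (S : I → Set Ω) (Y : I → Subgroup G)
    (htrans : ∀ i, ∀ x ∈ S i, ∀ x' ∈ S i, ∃ y ∈ Y i, y • x = x')
    (hsupp : ∀ i, ∀ y ∈ Y i, ∀ x, x ∉ S i → y • x = x)
    (hdisj : Pairwise (Function.onFun Disjoint S))
    (htwo : ∀ i, 2 ≤ (S i).ncard) (hp : ∀ i, ¬ p ∣ (S i).ncard)
    (hout : ∀ ω : Ω, (∀ i, ω ∉ S i) → ∀ i b, (S i).ncard + 1 ≠ p ^ b)
    (E : Subgroup G) (hE : IsElemAb p E) (hYE : ∀ i, Y i ≤ Subgroup.normalizer (E : Set G)) :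
    ∀ i, ∀ e ∈ E, ∀ x ∈ S i, e • x = x := by
  intro i e he x hx
  by_contra hmove
  have hcj : ∀ j, ∀ y ∈ Y j, ∀ u ∈ E, y * u * y⁻¹ ∈ E := fun j y hy u hu =>
    (Subgroup.mem_normalizer_iff.mp (hYE j hy) u).mp hu
  have hsmul : ∀ y u : G, ∀ w : Ω, y • (u • w) = (y * u * y⁻¹) • (y • w) := by
    intro y u w
    simp [mul_smul]
  have hEp : IsPGroup p E := isElemAb_isPGroup hE
  obtain ⟨-, hexp, hcomm⟩ := hE
  have hstable : ∀ j, ∀ y ∈ Y j, ∀ s ∈ S j, y • s ∈ S j := by
    intro j y hy s hs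
    by_contra hn
    have h1 := hsupp j y hy _ hn
    have h2 : y • s = s := smul_left_cancel y h1
    rw [h2] at hn
    exact hn hs
  have hnofix : ∀ s ∈ S i, ∃ u ∈ E, u • s ≠ s := by
    intro s hs
    obtain ⟨y, hy, rfl⟩ := htrans i x hx s hs
    refine ⟨y * e * y⁻¹, hcj i y hy e he, ?_⟩
    rw [← hsmul]
    intro h
    exact hmove (smul_left_cancel y h)
  by_cases hEs : ∀ u ∈ E, ∀ s ∈ S i, u • s ∈ S i
  · exact hp i (prime_dvd_ncard_of_no_fixed p E hEp (S i) hEs hnofix)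
  push Not at hEs
  obtain ⟨u₁, hu₁, s, hs, hz⟩ := hEs
  obtain ⟨z, hzdef⟩ : ∃ z, z = u₁ • s := ⟨_, rfl⟩
  rw [← hzdef] at hz
  have hzfix : ∀ y ∈ Y i, y • z = z := fun y hy => hsupp i y hy z hz
  -- the `E`-orbit of `z`
  obtain ⟨O, hO⟩ : ∃ O : Set Ω, O = {w | ∃ u ∈ E, u • z = w} := ⟨_, rfl⟩
  have hOmem : ∀ w, w ∈ O ↔ ∃ u ∈ E, u • z = w := by
    intro w
    rw [hO]
    rfl
  have hOY : ∀ y ∈ Y i, ∀ w ∈ O, y • w ∈ O := by
    intro y hy w hw
    obtain ⟨u, hu, rfl⟩ := (hOmem w).mp hw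
    refine (hOmem _).mpr ⟨y * u * y⁻¹, hcj i y hy u hu, ?_⟩
    rw [hsmul y u z, hzfix y hy]
  have hsO : s ∈ O := (hOmem s).mpr ⟨u₁⁻¹, E.inv_mem hu₁, by simp [hzdef]⟩
  have hSO : S i ⊆ O := by
    intro s' hs'
    obtain ⟨y, hy, rfl⟩ := htrans i s hs s' hs'
    exact hOY y hy s hsO
  -- fixed points of `Y i` in `O` lie outside `S i`
  have hfixS : ∀ w, w ∈ O → (∀ y ∈ Y i, y • w = w) → w ∉ S i := by
    intro w _ hw hwS
    have h2 := htwo i
    have : (S i).ncard ≤ 1 := by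
      rw [Set.ncard_le_one_iff_eq] 
      right
      refine ⟨w, ?_⟩
      ext a
      constructor
      · intro ha
        obtain ⟨y, hy, rfl⟩ := htrans i w hwS a ha
        exact hw y hy
      · rintro rfl
        exact hwS
    omega
  -- there is no second point outside `S i` in `O`
  have huniq : ∀ z' ∈ O, z' ∉ S i → z' = z := by
    intro z' hz'O hz'S
    by_contra hne
    obtain ⟨d, hd, rfl⟩ := (hOmem _).mp hz'O
    have hdz : ∀ y ∈ Y i, y • (d • z) = d • z := fun y hy => hsupp i y hy _ hz'S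
    have hdF : ∀ f, f ∈ O → f ∉ S i → d • f ∈ O ∧ d • f ∉ S i := by
      intro f hf hfS
      obtain ⟨a, ha, rfl⟩ := (hOmem _).mp hf
      have hmem : d • a • z ∈ O := (hOmem _).mpr ⟨d * a, E.mul_mem hd ha, by rw [mul_smul]⟩
      refine ⟨hmem, hfixS _ hmem ?_⟩
      intro y hy
      have hfy : y • (a • z) = a • z := hsupp i y hy _ hfS
      have h1 : (y * d * y⁻¹) • z = d • z := by
        have := hdz y hy
        rw [hsmul, hzfix y hy] at this
        exact this
      rw [hsmul y d, hfy, ← mul_smul, hcomm _ (hcj i y hy d hd) a ha, mul_smul, h1, ← mul_smul,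
        hcomm a ha d hd, mul_smul]
    have hpow : ∀ n : ℕ, ∀ f, f ∈ O → f ∉ S i → d ^ n • f ∈ O ∧ d ^ n • f ∉ S i := by
      intro n
      induction n with
      | zero =>
        intro f h1 h2
        simpa using ⟨h1, h2⟩
      | succ n ih =>
        intro f h1 h2
        rw [pow_succ, mul_smul]
        obtain ⟨h3, h4⟩ := hdF f h1 h2
        exact ih _ h3 h4
    have hdp : d ^ p = 1 := hexp d hd
    have hp1 : 0 < p := hp0.out.pos
    have hdS : ∀ s' ∈ S i, d • s' ∈ S i := by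
      intro s' hs'
      by_contra hn
      have hm : d • s' ∈ O := by
        obtain ⟨a, ha, hae⟩ := (hOmem _).mp (hSO hs')
        exact (hOmem _).mpr ⟨d * a, E.mul_mem hd ha, by rw [mul_smul, hae]⟩
      have := (hpow (p - 1) _ hm hn).2
      rw [← mul_smul, ← pow_succ, Nat.sub_add_cancel hp1, hdp, one_smul] at this
      exact this hs'
    have hPp : IsPGroup p (Subgroup.zpowers d) := by
      intro u
      obtain ⟨k, hk⟩ := Subgroup.mem_zpowers_iff.mp u.2
      refine ⟨1, ?_⟩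
      apply Subtype.ext
      show (u : G) ^ p ^ 1 = 1
      rw [pow_one, ← hk, ← zpow_natCast, ← zpow_mul, mul_comm, zpow_mul, zpow_natCast, hdp, one_zpow]
    have hdpowS : ∀ n : ℕ, ∀ s' ∈ S i, d ^ n • s' ∈ S i := by
      intro n
      induction n with
      | zero =>
        intro s' hs'
        simpa using hs'
      | succ n ih =>
        intro s' hs'
        rw [pow_succ, mul_smul]
        exact ih _ (hdS s' hs')
    apply hp i
    apply prime_dvd_ncard_of_no_fixed p (Subgroup.zpowers d) hPp (S i)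
    · intro u hu s' hs'
      obtain ⟨k, hk⟩ := Subgroup.mem_zpowers_iff.mp hu
      have hk2 : u = d ^ (k % p : ℤ).toNat := by
        have hp2 : (0 : ℤ) ≤ k % p := Int.emod_nonneg _ (by exact_mod_cast hp1.ne')
        rw [← zpow_natCast, Int.toNat_of_nonneg hp2, ← hk]
        conv_lhs => rw [← Int.mul_ediv_add_emod k p]
        rw [zpow_add, zpow_mul, zpow_natCast, hdp, one_zpow, one_mul]
      rw [hk2]
      exact hdpowS _ _ hs'
    · intro s' hs'
      refine ⟨d, Subgroup.mem_zpowers d, ?_⟩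
      intro hds
      obtain ⟨a, ha, hae⟩ := (hOmem _).mp (hSO hs')
      apply hne
      rw [← hae, ← mul_smul, hcomm d hd a ha, mul_smul] at hds
      exact smul_left_cancel a hds
  -- `O` is `S i` together with `z`, a set whose size is a power of `p`
  have hOeq : O = insert z (S i) := by
    ext w
    constructor
    · intro hw
      by_cases hwS : w ∈ S i
      · exact Or.inr hwS
      · exact Or.inl (huniq w hw hwS)
    · rintro (rfl | hw)
      · exact (hOmem _).mpr ⟨1, E.one_mem, one_smul _ _⟩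
      · exact hSO hw
  have hOcard : O.ncard = (S i).ncard + 1 := by
    rw [hOeq, Set.ncard_insert_of_notMem hz (Set.toFinite _)]
  have hOorb : O = MulAction.orbit E z := by
    ext w
    constructor
    · intro hw
      obtain ⟨u, hu, rfl⟩ := (hOmem _).mp hw
      exact ⟨⟨u, hu⟩, rfl⟩
    · rintro ⟨u, rfl⟩
      exact (hOmem _).mpr ⟨u.1, u.2, rfl⟩
  obtain ⟨b, hb⟩ := hEp.card_orbit z
  have hb' : (S i).ncard + 1 = p ^ b := by
    rw [← hOcard, hOorb, ← hb]
    rfl
  by_cases hzout : ∀ j, z ∉ S j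
  · exact hout z hzout i b hb'
  push Not at hzout
  obtain ⟨j, hj⟩ := hzout
  have hji : j ≠ i := by
    rintro rfl
    exact hz hj
  have hSj : S j ⊆ {z} := by
    intro a ha
    obtain ⟨y, hy, rfl⟩ := htrans j z hj a ha
    have hsfix : y • s = s := by
      apply hsupp j y hy
      intro hsj
      exact Set.disjoint_left.mp (hdisj hji) hsj hs
    have hmem : y • z ∈ O := by
      refine (hOmem _).mpr ⟨(y * u₁ * y⁻¹) * u₁⁻¹, E.mul_mem (hcj j y hy u₁ hu₁) (E.inv_mem hu₁), ?_⟩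
      rw [hzdef, hsmul y u₁ s, hsfix, mul_smul, inv_smul_smul]
    have hnS : y • z ∉ S i := fun h =>
      Set.disjoint_left.mp (hdisj hji) ha h
    exact huniq _ hmem hnS
  have h2 := htwo j
  have h1 := Set.ncard_le_ncard hSj (Set.toFinite _)
  rw [Set.ncard_singleton] at h1
  omega

/-- The permutation criterion for a hyperelementary subgroup. -/
theorem homology_ne_of_pieces [Finite G] [Finite Ω] (p q : ℕ) [Fact p.Prime] [Fact q.Prime]
    (g : G) (T : Subgroup G)
    (hT : ∀ t ∈ T, t⁻¹ * g * t ∈ Subgroup.zpowers g)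
    (hq' : ∀ t ∈ T, ∃ k : ℕ, t ^ q ^ k ∈ Subgroup.zpowers g)
    {I : Type*} (S : I → Set Ω) (Y : I → Subgroup G) (hYT : ∀ i, Y i ≤ T)
    (htrans : ∀ i, ∀ x ∈ S i, ∀ x' ∈ S i, ∃ y ∈ Y i, y • x = x')
    (hsupp : ∀ i, ∀ y ∈ Y i, ∀ x, x ∉ S i → y • x = x)
    (hdisj : Pairwise (Function.onFun Disjoint S))
    (htwo : ∀ i, 2 ≤ (S i).ncard) (hp : ∀ i, ¬ p ∣ (S i).ncard)
    (hout : ∀ ω : Ω, (∀ i, ω ∉ S i) → ∀ i b, (S i).ncard + 1 ≠ p ^ b)
    (hcen : ∀ x : G, x ^ p = 1 → (∀ i, ∀ ω ∈ S i, x • ω = ω) → x = 1) :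
    ¬ ReducedHomologyVanishes p G := by
  apply homology_ne_of_hyperelementary p q g T hT hq'
  intro E hE hTE
  have hfix := fixed_on_piece S Y htrans hsupp hdisj htwo hp hout E hE
    (fun i => (hYT i).trans hTE)
  apply hE.1
  rw [eq_bot_iff]
  intro e he
  rw [Subgroup.mem_bot]
  exact hcen e (hE.2.1 e he) fun i ω hω => hfix i e he ω hω

end Vale.Agent.Lib.P240
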