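import Vale.Agent.Lib.P240.DefsRankOne
import Vale.Agent.Lib.P240.Components

/-!
Rank one data gives `p`-free subgroups.
-/

namespace Vale.Agent.Lib.P240

section

variable {r : ℕ} {L X : Type*} [Group L] [MulAction L X] {x₀ : X} {U : Subgroup L}

lemma order_trivial {p : ℕ} [Fact p.Prime] [Fact r.Prime] (hpr : p ≠ r)
    (hU : IsPGroup r U) {u : L} (hu : u ∈ U) (hup : u ^ p = 1) : u = 1 := by
  obtain ⟨k, hk⟩ := (IsPGroup.iff_orderOf.mp hU) ⟨u, hu⟩
  have hk' : orderOf u = r ^ k := by
    rw [← hk]
    exact (Subgroup.orderOf_mk _ _).symm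
  have hdvd : r ^ k ∣ p := by
    rw [← hk']
    exact orderOf_dvd_of_pow_eq_one hup
  have hk0 : k = 0 := by
    by_contra hne
    have hq1 : r ∣ r ^ k := dvd_pow_self r hne
    have := hq1.trans hdvd
    exact hpr ((Nat.prime_dvd_prime_iff_eq (Fact.out) (Fact.out)).mp this).symm
  rw [hk0, pow_zero, orderOf_eq_one_iff] at hk'
  exact hk'

/-- A self-map commuting with `U`, fixing `x₀`, with `f^[p] = id`, is the identity. -/
lemma commuting_map_eq_id {p : ℕ} [Fact p.Prime] [Fact r.Prime] (hpr : p ≠ r)
    (hd : IsRankOneData r x₀ U) (f : X → X) (hf0 : f x₀ = x₀)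
    (hfU : ∀ u ∈ U, ∀ y, f (u • y) = u • f y) (hfp : ∀ y, f^[p] y = y) : ∀ y, f y = y := by
  have hp : 0 < p := (Fact.out : p.Prime).pos
  have hinj : Function.Injective f := by
    intro a b hab
    have h1 : f^[p] a = f^[p] b := by
      obtain ⟨m, hm⟩ : ∃ m, p = m + 1 := ⟨p - 1, by omega⟩
      rw [hm, Function.iterate_succ_apply, Function.iterate_succ_apply, hab]
    rwa [hfp, hfp] at h1
  intro y
  by_cases hy : y = x₀
  · rw [hy, hf0]
  have hfy : f y ≠ x₀ := by
    intro h
    apply hy
    apply hinj
    rw [h, hf0]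
  obtain ⟨u₀, hu₀, hu₀y⟩ := hd.trans y (f y) hy hfy
  have hiter : ∀ n : ℕ, f^[n] y = u₀ ^ n • y := by
    intro n
    induction n with
    | zero => simp
    | succ n ih =>
      rw [Function.iterate_succ_apply', ih, hfU _ (U.pow_mem hu₀ n), ← hu₀y, pow_succ, mul_smul]
  have h1 : u₀ ^ p • y = y := by rw [← hiter p, hfp]
  have h2 : u₀ ^ p = 1 := hd.free _ (U.pow_mem hu₀ p) y hy h1
  have h3 : u₀ = 1 := order_trivial hpr hd.isPGroup hu₀ h2
  rw [← hu₀y, h3, one_smul]

/-- The trivial subgroup is excluded. -/
lemma rankOne_U_ne_bot (hd : IsRankOneData r x₀ U) : U ≠ ⊥ := by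
  obtain ⟨y, y', hy, hy', hne⟩ := hd.two
  obtain ⟨u, hu, huy⟩ := hd.trans y y' hy hy'
  intro hb
  rw [hb, Subgroup.mem_bot] at hu
  rw [hu, one_smul] at huy
  exact hne huy

/-- Rank one data gives a `p`-free subgroup. -/
theorem freeSubgroup_of_rankOne [IsSimpleGroup L] [FaithfulSMul L X]
    [MulAction.IsPretransitive L X]
    {p : ℕ} [Fact p.Prime] [Fact r.Prime] (hpr : p ≠ r)
    (hd : IsRankOneData r x₀ U) : FreeSubgroup p L U := by
  have hU0 := rankOne_U_ne_bot hd
  have hp : 0 < p := (Fact.out : p.Prime).pos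
  -- the group is not commutative
  have hnc : ¬ ∀ a b : L, a * b = b * a := by
    intro hc
    apply hU0
    rw [eq_bot_iff]
    intro u hu
    rw [Subgroup.mem_bot]
    obtain ⟨y, _, hy, _, _⟩ := hd.two
    obtain ⟨g, hg⟩ := MulAction.exists_smul_eq L x₀ y
    apply hd.free u hu y hy
    rw [← hg, ← mul_smul, hc u g, mul_smul, hd.fix u hu]
  have hact : ∀ g : L, (∀ y : X, g • y = y) → g = 1 := by
    intro g hg
    apply FaithfulSMul.eq_of_smul_eq_smul (α := X)
    intro y
    rw [hg, one_smul]
  refine ⟨?_, ?_⟩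
  · -- (P1)
    intro E hE hUE
    obtain ⟨hE0, hEexp, hEcomm⟩ := hE
    by_cases hmove : ∃ e ∈ E, e • x₀ ≠ x₀
    · -- E is transitive on the points
      obtain ⟨e, he, hex⟩ := hmove
      have hconj : ∀ u ∈ U, ∀ x ∈ E, u * x * u⁻¹ ∈ E := fun u hu x hx =>
        (Subgroup.mem_normalizer_iff.mp (hUE hu) x).mp hx
      have htrans : ∀ y : X, ∃ x ∈ E, x • x₀ = y := by
        intro y
        by_cases hy : y = x₀
        · exact ⟨1, E.one_mem, by rw [hy, one_smul]⟩
        obtain ⟨u, hu, huy⟩ := hd.trans _ y hex hy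
        refine ⟨u * e * u⁻¹, hconj u hu e he, ?_⟩
        have h1 : u⁻¹ • x₀ = x₀ := by
          have := hd.fix u⁻¹ (U.inv_mem hu)
          exact this
        rw [mul_smul, mul_smul, h1, huy]
      -- every conjugate of U lies in the normalizer of E
      have hle : U ≤ Subgroup.normalizer (E : Set L) := hUE
      have hEle : E ≤ Subgroup.normalizer (E : Set L) := Subgroup.le_normalizer
      have hnormal : ∀ g : L, ∀ u ∈ U, g * u * g⁻¹ ∈ Subgroup.normalizer (E : Set L) := by
        intro g u hu
        obtain ⟨x, hx, hxg⟩ := htrans (g • x₀)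
        have hb : (x⁻¹ * g) • x₀ = x₀ := by
          rw [mul_smul, ← hxg, ← mul_smul]
          simp
        have h2 := hd.normal _ hb u hu
        have h3 : g * u * g⁻¹ = x * ((x⁻¹ * g) * u * (x⁻¹ * g)⁻¹) * x⁻¹ := by group
        rw [h3]
        exact Subgroup.mul_mem _ (Subgroup.mul_mem _ (hEle hx) (hle h2)) ((Subgroup.inv_mem _ (hEle hx)))
      -- the normal closure of U is everything
      have htop : Subgroup.normalClosure (U : Set L) = ⊤ := by
        rcases (Subgroup.normalClosure_normal (s := (U : Set L))).eq_bot_or_eq_top with h | h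
        · exfalso
          apply hU0
          rw [eq_bot_iff, ← h]
          exact Subgroup.subset_normalClosure
        · exact h
      have hnorm_top : Subgroup.normalizer (E : Set L) = ⊤ := by
        rw [eq_top_iff, ← htop, Subgroup.normalClosure, Subgroup.closure_le]
        intro a ha
        obtain ⟨b, hb, hab⟩ := Group.mem_conjugatesOfSet_iff.mp ha
        obtain ⟨c, hc⟩ := isConj_iff.mp hab
        rw [← hc]
        exact hnormal c b hb
      have hEnormal : E.Normal := by
        rw [← Subgroup.normalizer_eq_top_iff]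
        exact hnorm_top
      rcases hEnormal.eq_bot_or_eq_top with h | h
      · exact hE0 h
      · apply hnc
        intro a b
        have ha : a ∈ E := by rw [h]; exact Subgroup.mem_top a
        have hb : b ∈ E := by rw [h]; exact Subgroup.mem_top b
        exact hEcomm a ha b hb
    · -- all of E fixes x₀
      push Not at hmove
      -- commutation with U
      have hcomm : ∀ e ∈ E, ∀ u ∈ U, e * u = u * e := by
        intro e he u hu
        have h1 : e * u * e⁻¹ ∈ U := hd.normal e (hmove e he) u hu
        have h2 : u * e⁻¹ * u⁻¹ ∈ E :=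
          (Subgroup.mem_normalizer_iff.mp (hUE hu) e⁻¹).mp (E.inv_mem he)
        have h3 : e * u * e⁻¹ * u⁻¹ ∈ U := U.mul_mem h1 (U.inv_mem hu)
        have h4 : e * u * e⁻¹ * u⁻¹ ∈ E := by
          have : e * u * e⁻¹ * u⁻¹ = e * (u * e⁻¹ * u⁻¹) := by group
          rw [this]
          exact E.mul_mem he h2
        have h5 : (e * u * e⁻¹ * u⁻¹) ^ p = 1 := hEexp _ h4
        have h6 : e * u * e⁻¹ * u⁻¹ = 1 := order_trivial hpr hd.isPGroup h3 h5
        have h7 : e * u * e⁻¹ = u := by
          have := mul_eq_one_iff_eq_inv.mp h6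
          simpa using this
        exact mul_inv_eq_iff_eq_mul.mp h7
      apply hE0
      rw [eq_bot_iff]
      intro e he
      rw [Subgroup.mem_bot]
      apply hact
      have hep : ∀ n : ℕ, ∀ y : X, (fun z => e • z)^[n] y = e ^ n • y := by
        intro n y
        induction n with
        | zero => simp
        | succ n ih =>
          rw [Function.iterate_succ_apply', ih, pow_succ', mul_smul]
      apply commuting_map_eq_id hpr hd (fun z => e • z) (hmove e he)
      · intro u hu y
        show e • u • y = u • e • y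
        rw [← mul_smul, ← mul_smul, hcomm e he u hu]
      · intro y
        rw [hep, hEexp e he, one_smul]
  · -- (P2)
    intro α hαp hαU
    -- the stabilizer of x₀ is preserved
    have hαbor : ∀ b : L, b • x₀ = x₀ → α b • x₀ = x₀ := by
      intro b hb
      by_contra hne
      apply hU0
      rw [eq_bot_iff]
      intro u hu
      rw [Subgroup.mem_bot]
      -- `α b` normalizes `U`, so `U` fixes `α b • x₀`
      have h1 : (b⁻¹ * u * b) ∈ U := by
        have := hd.normal b⁻¹ (by
          have h := congrArg (fun z => b⁻¹ • z) hb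
          simpa using h.symm) u hu
        simpa using this
      have h2 : α (b⁻¹ * u * b) = b⁻¹ * u * b := hαU _ h1
      have h3 : u * α b = α b * (b⁻¹ * u * b) := by
        have hu' : α u = u := hαU u hu
        have : α (u * b) = α (b * (b⁻¹ * u * b)) := by group
        rw [map_mul, map_mul, hu', h2] at this
        exact this
      apply hd.free u hu (α b • x₀) hne
      rw [← mul_smul, h3, mul_smul, hd.fix _ h1]
    have hαinv : ∀ b : L, b • x₀ = x₀ → α b⁻¹ • x₀ = x₀ := fun b hb => by
      apply hαbor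
      have h := congrArg (fun z => b⁻¹ • z) hb
      simpa using h.symm
    -- the induced map on points
    choose gpt hgpt using fun y : X => MulAction.exists_smul_eq L x₀ y
    let f : X → X := fun y => α (gpt y) • x₀
    have hf : ∀ g : L, f (g • x₀) = α g • x₀ := by
      intro g
      have h1 : (g⁻¹ * gpt (g • x₀)) • x₀ = x₀ := by
        rw [mul_smul, hgpt, ← mul_smul]
        simp
      have h2 := hαbor _ h1
      have h3 : α (gpt (g • x₀)) = α g * α (g⁻¹ * gpt (g • x₀)) := by
        rw [← map_mul]
        congr 1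
        group
      show α (gpt (g • x₀)) • x₀ = α g • x₀
      rw [h3, mul_smul, h2]
    have hf0 : f x₀ = x₀ := by
      have := hf 1
      rw [one_smul, map_one, one_smul] at this
      exact this
    have hfU : ∀ u ∈ U, ∀ y, f (u • y) = u • f y := by
      intro u hu y
      obtain ⟨g, hg⟩ := MulAction.exists_smul_eq L x₀ y
      rw [← hg, ← mul_smul, hf, hf, map_mul, hαU u hu, mul_smul]
    have hiter : ∀ n : ℕ, ∀ g : L, f^[n] (g • x₀) = (α ^ n) g • x₀ := by
      intro n g
      induction n with
      | zero => simp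
      | succ n ih =>
        rw [Function.iterate_succ_apply', ih, hf, pow_succ', MulAut.mul_apply]
    have hfp : ∀ y, f^[p] y = y := by
      intro y
      obtain ⟨g, hg⟩ := MulAction.exists_smul_eq L x₀ y
      rw [← hg, hiter, hαp, MulAut.one_apply]
    have hfid := commuting_map_eq_id hpr hd f hf0 hfU hfp
    have hpt : ∀ g : L, α g • x₀ = g • x₀ := by
      intro g
      rw [← hf, hfid]
    ext g
    rw [MulAut.one_apply]
    apply FaithfulSMul.eq_of_smul_eq_smul (α := X)
    intro y
    obtain ⟨h, hh⟩ := MulAction.exists_smul_eq L x₀ y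
    rw [← hh, ← hpt h, ← mul_smul, ← map_mul, hpt, mul_smul, hpt]

end

end Vale.Agent.Lib.P240
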